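import Vale.Agent.P287.R2.H248.Pert

/-!
P287: a smooth cubic surface contains a line: the continuity method. The rows (finitely many bad
parameters, openness, closedness) are hypotheses here.
-/

namespace Vale.Agent.P287.R2.H414

open Module Set Topology Vale.Agent.P287.R2.H248

theorem line_of_path {S : Tri (Fin 4 → ℂ)} (hS : S.Smooth) (l : (Fin 4 → ℂ) →ₗ[ℂ] ℂ)
    (hbad : {t : ℂ | ¬ (S.pert l t).Smooth}.Finite)
    (hopen : ∀ (t0 : ℂ) (U : Submodule ℂ (Fin 4 → ℂ)), finrank ℂ U = 2 → (S.pert l t0).Iso U →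
      (∀ u ∈ U, (∀ w, (S.pert l t0).T u u w = 0) → u = 0) →
      ∀ᶠ t in 𝓝 t0, ∃ U' : Submodule ℂ (Fin 4 → ℂ), finrank ℂ U' = 2 ∧ (S.pert l t).Iso U')
    (hclosed : IsClosed {t : ℂ | ∃ U : Submodule ℂ (Fin 4 → ℂ), finrank ℂ U = 2 ∧
      (S.pert l t).Iso U})
    (c : ℂ) (U : Submodule ℂ (Fin 4 → ℂ)) (hU : finrank ℂ U = 2) (hI : (S.pert l c).Iso U)
    (hnd : ∀ u ∈ U, (∀ w, (S.pert l c).T u u w = 0) → u = 0) :
    ∃ U' : Submodule ℂ (Fin 4 → ℂ), finrank ℂ U' = 2 ∧ S.Iso U' := by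
  set B : Set ℂ := {t : ℂ | ¬ (S.pert l t).Smooth} with hB
  set L : Set ℂ := {t : ℂ | ∃ U : Submodule ℂ (Fin 4 → ℂ), finrank ℂ U = 2 ∧
    (S.pert l t).Iso U} with hL
  have hconn : IsPreconnected Bᶜ :=
    (hbad.countable.isConnected_compl_of_one_lt_rank (by simp)).2
  have hu : IsOpen (L ∩ Bᶜ) := by
    rw [isOpen_iff_mem_nhds]
    rintro t ⟨⟨W, hW, hWI⟩, htB⟩
    refine Filter.inter_mem ?_ (hbad.isClosed.isOpen_compl.mem_nhds htB)
    have hsm : (S.pert l t).Smooth := not_not.mp htB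
    exact hopen t W hW hWI fun u _ hu => hsm u hu
  have hv : IsOpen Lᶜ := hclosed.isOpen_compl
  have hdisj : Disjoint (L ∩ Bᶜ) Lᶜ := by
    rw [Set.disjoint_left]
    rintro t ⟨ht, -⟩ ht'
    exact ht' ht
  have hcov : Bᶜ ⊆ (L ∩ Bᶜ) ∪ Lᶜ := by
    intro t ht
    by_cases htL : t ∈ L
    · exact Or.inl ⟨htL, ht⟩
    · exact Or.inr htL
  have hne : (Bᶜ ∩ (L ∩ Bᶜ)).Nonempty := by
    have h1 : L ∈ 𝓝 c := hopen c U hU hI hnd
    obtain ⟨t, htL, htB⟩ := (infinite_of_mem_nhds c h1).exists_notMem_finite hbad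
    exact ⟨t, htB, htL, htB⟩
  have hsub := IsPreconnected.subset_left_of_subset_union hu hv hdisj hcov hne hconn
  have h0 : (0 : ℂ) ∈ Bᶜ := by
    intro h
    apply h
    intro v hv0
    apply hS
    intro w
    have := hv0 w
    rwa [Tri.pert_zero] at this
  obtain ⟨⟨W, hW, hWI⟩, -⟩ := hsub h0
  refine ⟨W, hW, fun u hu => ?_⟩
  have := hWI u hu
  rwa [Tri.pert_zero] at this

end Vale.Agent.P287.R2.H414
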