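import Vale.Agent.P287.R2.H248.Eckardt
import Vale.Agent.P287.R2.H248.Defs

/-!
P287: a smooth cubic fourfold which contains two disjoint planes is rational, with explicit
rational maps of degrees four and two.
-/

namespace Vale.Agent.P287.R2.H414

open Module MvPolynomial Vale.Agent.P287.R2.H248

lemma eval_bind {m n : ℕ} (f : Fin m → MvPolynomial (Fin n) ℂ) (p : MvPolynomial (Fin m) ℂ)
    (x : Fin n → ℂ) : eval x (bind₁ f p) = eval (fun i => eval x (f i)) p := by
  have := eval₂Hom_bind₁ (RingHom.id ℂ) x f p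
  exact this

/-- A linear form as a polynomial. -/
noncomputable def lin (L : A6 →ₗ[ℂ] ℂ) : MvPolynomial (Fin 6) ℂ :=
  ∑ k, C (L (Pi.single k 1)) * X k

lemma eval_lin (L : A6 →ₗ[ℂ] ℂ) (v : A6) : eval v (lin L) = L v := by
  have h : v = ∑ k, v k • (Pi.single k 1 : A6) := by
    ext i
    simp [Finset.sum_apply, Pi.single_apply]
  conv_rhs => rw [h]
  rw [lin, map_sum, map_sum]
  refine Finset.sum_congr rfl fun k _ => ?_
  rw [map_mul, eval_C, eval_X, map_smul, smul_eq_mul, mul_comm]

lemma lin_hom (L : A6 →ₗ[ℂ] ℂ) : (lin L).IsHomogeneous 1 := by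
  refine IsHomogeneous.sum _ _ _ fun k _ => ?_
  have := (isHomogeneous_C (Fin 6) (L (Pi.single k 1))).mul (isHomogeneous_X ℂ k)
  rwa [zero_add] at this

/-- `∑ i, a i • A i`. -/
def cb (A : Fin 3 → A6) (a : Fin 3 → ℂ) : A6 := ∑ i, a i • A i

/-- The polynomial `∑ c T(A i, A j, B k) p i p j q k`. -/
noncomputable def gp {σ : Type} (c : Fin 3 → Fin 3 → Fin 3 → ℂ) (p p' q : Fin 3 → MvPolynomial σ ℂ) :
    MvPolynomial σ ℂ :=
  ∑ k, ∑ j, ∑ i, C (c i j k) * (p i * p' j * q k)

lemma gp_hom {σ : Type} {c : Fin 3 → Fin 3 → Fin 3 → ℂ} {p p' q : Fin 3 → MvPolynomial σ ℂ}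
    {m m' n : ℕ} (hp : ∀ i, (p i).IsHomogeneous m) (hp' : ∀ i, (p' i).IsHomogeneous m')
    (hq : ∀ i, (q i).IsHomogeneous n) : (gp c p p' q).IsHomogeneous (m + m' + n) := by
  refine IsHomogeneous.sum _ _ _ fun k _ => IsHomogeneous.sum _ _ _ fun j _ =>
    IsHomogeneous.sum _ _ _ fun i _ => ?_
  have := (isHomogeneous_C σ (c i j k)).mul (((hp i).mul (hp' j)).mul (hq k))
  rwa [zero_add] at this

lemma eval_gp {σ : Type} (S : Tri A6) (A A' B : Fin 3 → A6) (p p' q : Fin 3 → MvPolynomial σ ℂ)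
    (x : σ → ℂ) : eval x (gp (fun i j k => S.T (A i) (A' j) (B k)) p p' q) =
      S.T (cb A fun i => eval x (p i)) (cb A' fun i => eval x (p' i))
        (cb B fun i => eval x (q i)) := by
  simp only [gp, cb, map_sum, map_smul, LinearMap.sum_apply, LinearMap.smul_apply, map_mul,
    eval_C, smul_eq_mul]
  refine Finset.sum_congr rfl fun k _ => ?_
  rw [Finset.mul_sum]
  refine Finset.sum_congr rfl fun j _ => ?_
  rw [Finset.mul_sum, Finset.mul_sum]
  refine Finset.sum_congr rfl fun i _ => ?_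
  ring

/-- The `i`-th coordinate of `∑ q j • A j`, as a polynomial. -/
noncomputable def cp {σ : Type} (A : Fin 3 → A6) (q : Fin 3 → MvPolynomial σ ℂ) (i : Fin 6) :
    MvPolynomial σ ℂ := ∑ j, C (A j i) * q j

lemma cp_hom {σ : Type} {A : Fin 3 → A6} {q : Fin 3 → MvPolynomial σ ℂ} {n : ℕ}
    (hq : ∀ i, (q i).IsHomogeneous n) (i : Fin 6) : (cp A q i).IsHomogeneous n := by
  refine IsHomogeneous.sum _ _ _ fun j _ => ?_
  have := (isHomogeneous_C σ (A j i)).mul (hq j)
  rwa [zero_add] at this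

lemma eval_cp {σ : Type} (A : Fin 3 → A6) (q : Fin 3 → MvPolynomial σ ℂ) (i : Fin 6)
    (x : σ → ℂ) : eval x (cp A q i) = cb A (fun j => eval x (q j)) i := by
  simp only [cp, cb, map_sum, map_mul, eval_C, Finset.sum_apply, Pi.smul_apply, smul_eq_mul]
  exact Finset.sum_congr rfl fun j _ => mul_comm _ _

lemma cb_smul (A : Fin 3 → A6) (c : ℂ) (a : Fin 3 → ℂ) : cb A (fun i => c * a i) = c • cb A a := by
  simp only [cb, Finset.smul_sum, mul_smul]

/-- `(t₀, t₁, t₂)`. -/
noncomputable def al : Fin 3 → MvPolynomial (Fin 5) ℂ := ![X 0, X 1, X 2]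

/-- `(t₀, t₃, t₄)`. -/
noncomputable def be : Fin 3 → MvPolynomial (Fin 5) ℂ := ![X 0, X 3, X 4]

lemma al_hom (i : Fin 3) : (al i).IsHomogeneous 1 := by
  fin_cases i <;> exact isHomogeneous_X ℂ _

lemma be_hom (i : Fin 3) : (be i).IsHomogeneous 1 := by
  fin_cases i <;> exact isHomogeneous_X ℂ _

/-- A smooth cubic fourfold which contains two disjoint planes is birational to projective
four-space. -/
theorem rational_of_planes {S : Tri A6} (hS : S.Smooth) {P Q : Submodule ℂ A6}
    (hP : finrank ℂ P = 3) (hQ : finrank ℂ Q = 3) (hIP : S.Iso P) (hIQ : S.Iso Q)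
    (hd : Disjoint P Q) {F : MvPolynomial (Fin 6) ℂ} (hF : ∀ v, eval v F = S.T v v v) :
    IsRational F := by
  classical
  have hc : IsCompl P Q := by
    refine ⟨hd, ?_⟩
    rw [codisjoint_iff]
    apply Submodule.eq_top_of_finrank_eq
    have h1 := Submodule.finrank_sup_add_finrank_inf_eq P Q
    rw [hd.eq_bot, finrank_bot, hP, hQ] at h1
    rw [finrank_fin_fun]
    omega
  set bP := finBasisOfFinrankEq ℂ P hP with hbP
  set bQ := finBasisOfFinrankEq ℂ Q hQ with hbQ
  set e := (bP.prod bQ).map (Submodule.prodEquivOfIsCompl P Q hc) with he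
  set A : Fin 3 → A6 := fun i => (bP i : A6) with hA
  set B : Fin 3 → A6 := fun i => (bQ i : A6) with hB
  have heA : ∀ i, e (Sum.inl i) = A i := by
    intro i
    simp [he, hA]
  have heB : ∀ i, e (Sum.inr i) = B i := by
    intro i
    simp [he, hB]
  set LA : Fin 3 → A6 →ₗ[ℂ] ℂ := fun i => e.coord (Sum.inl i) with hLA
  set LB : Fin 3 → A6 →ₗ[ℂ] ℂ := fun i => e.coord (Sum.inr i) with hLB
  have hsum : ∀ x, cb A (fun i => LA i x) + cb B (fun i => LB i x) = x := by
    intro x
    have := e.sum_repr x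
    rw [Fintype.sum_sum_type] at this
    simp only [heA, heB] at this
    exact this
  have hcA : ∀ a b : Fin 3 → ℂ, ∀ i, LA i (cb A a + cb B b) = a i := by
    intro a b i
    have h1 : cb A a + cb B b = ∑ j, (Sum.elim a b) j • e j := by
      rw [Fintype.sum_sum_type]
      simp only [heA, heB, Sum.elim_inl, Sum.elim_inr, cb]
    rw [h1, hLA]
    simp only [Basis.coord_apply, Basis.repr_sum_self, Sum.elim_inl]
  have hcB : ∀ a b : Fin 3 → ℂ, ∀ i, LB i (cb A a + cb B b) = b i := by
    intro a b i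
    have h1 : cb A a + cb B b = ∑ j, (Sum.elim a b) j • e j := by
      rw [Fintype.sum_sum_type]
      simp only [heA, heB, Sum.elim_inl, Sum.elim_inr, cb]
    rw [h1, hLB]
    simp only [Basis.coord_apply, Basis.repr_sum_self, Sum.elim_inr]
  have hAP : ∀ a, cb A a ∈ P := fun a =>
    P.sum_mem fun i _ => P.smul_mem _ (bP i).2
  have hBQ : ∀ b, cb B b ∈ Q := fun b =>
    Q.sum_mem fun i _ => Q.smul_mem _ (bQ i).2
  set g12 : (Fin 3 → ℂ) → (Fin 3 → ℂ) → ℂ := fun a b => 3 * S.T (cb A a) (cb B b) (cb B b)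
    with hg12
  set g21 : (Fin 3 → ℂ) → (Fin 3 → ℂ) → ℂ := fun a b => 3 * S.T (cb A a) (cb A a) (cb B b)
    with hg21
  have hTs : ∀ (a b : Fin 3 → ℂ) (s r : ℂ),
      eval (cb A (fun i => s * a i) + cb B (fun i => r * b i)) F =
      s ^ 2 * r * g21 a b + s * r ^ 2 * g12 a b := by
    intro a b s r
    rw [hF, cb_smul, cb_smul, S.cube_add, hIP _ (hAP a), hIQ _ (hBQ b), hg12, hg21]
    ring
  have h12s : ∀ (a b : Fin 3 → ℂ) (s r : ℂ),
      g12 (fun i => s * a i) (fun i => r * b i) = s * r ^ 2 * g12 a b := by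
    intro a b s r
    simp only [hg12, cb_smul, map_smul, LinearMap.smul_apply, smul_eq_mul]
    ring
  have h21s : ∀ (a b : Fin 3 → ℂ) (s r : ℂ),
      g21 (fun i => s * a i) (fun i => r * b i) = s ^ 2 * r * g21 a b := by
    intro a b s r
    simp only [hg21, cb_smul, map_smul, LinearMap.smul_apply, smul_eq_mul]
    ring
  -- the two bihomogeneous forms do not vanish
  have hcA1 : ∀ i, cb A (Pi.single i 1) = A i := by
    intro i
    simp [cb, Pi.single_apply]
  have hcB1 : ∀ i, cb B (Pi.single i 1) = B i := by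
    intro i
    simp [cb, Pi.single_apply]
  obtain ⟨a1, b1, hn21⟩ : ∃ a b, g21 a b ≠ 0 := by
    by_contra hcon
    push Not at hcon
    have h0 : A 0 = 0 := by
      apply hS
      intro w
      have hA0 : A 0 ∈ P := (bP 0).2
      rw [← hsum w, map_add, hIP.two hA0 (hAP _), zero_add]
      have := hcon (Pi.single 0 1) (fun i => LB i w)
      simp only [hg21, hcA1] at this
      exact (mul_eq_zero.mp this).resolve_left (by norm_num)
    exact bP.ne_zero 0 (Subtype.ext h0)
  obtain ⟨a2, b2, hn12⟩ : ∃ a b, g12 a b ≠ 0 := by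
    by_contra hcon
    push Not at hcon
    have h0 : B 0 = 0 := by
      apply hS
      intro w
      have hB0 : B 0 ∈ Q := (bQ 0).2
      rw [← hsum w, map_add, hIQ.two hB0 (hBQ _), add_zero]
      have := hcon (fun i => LA i w) (Pi.single 0 1)
      simp only [hg12, hcB1] at this
      have h2 := (mul_eq_zero.mp this).resolve_left (by norm_num)
      rw [← S.cyc]
      exact h2
    exact bQ.ne_zero 0 (Subtype.ext h0)
  -- a point where everything is nonzero
  obtain ⟨a, b, ha0, hb0, hab12, hab21⟩ : ∃ a b : Fin 3 → ℂ, a 0 ≠ 0 ∧ b 0 ≠ 0 ∧ g12 a b ≠ 0 ∧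
      g21 a b ≠ 0 := by
    set xa : Fin 3 → MvPolynomial (Fin 3 ⊕ Fin 3) ℂ := fun i => X (Sum.inl i) with hxa
    set xb : Fin 3 → MvPolynomial (Fin 3 ⊕ Fin 3) ℂ := fun i => X (Sum.inr i) with hxb
    set p1 := gp (fun i j k => S.T (A i) (A j) (B k)) xa xa xb with hp1
    set p2 := gp (fun i j k => S.T (A i) (B j) (B k)) xa xb xb with hp2
    have e1 : ∀ x, 3 * eval x p1 = g21 (fun i => x (Sum.inl i)) (fun i => x (Sum.inr i)) := by
      intro x
      rw [hp1, eval_gp]
      simp only [hxa, hxb, eval_X, hg21]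
    have e2 : ∀ x, 3 * eval x p2 = g12 (fun i => x (Sum.inl i)) (fun i => x (Sum.inr i)) := by
      intro x
      rw [hp2, eval_gp]
      simp only [hxa, hxb, eval_X, hg12]
    have n1 : p1 ≠ 0 := by
      intro h
      have := e1 (Sum.elim a1 b1)
      rw [h, map_zero, mul_zero] at this
      exact hn21 this.symm
    have n2 : p2 ≠ 0 := by
      intro h
      have := e2 (Sum.elim a2 b2)
      rw [h, map_zero, mul_zero] at this
      exact hn12 this.symm
    have n3 : xa 0 * xb 0 * p1 * p2 ≠ 0 :=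
      mul_ne_zero (mul_ne_zero (mul_ne_zero (X_ne_zero _) (X_ne_zero _)) n1) n2
    obtain ⟨x, hx⟩ : ∃ x, eval x (xa 0 * xb 0 * p1 * p2) ≠ 0 := by
      by_contra hcon
      push Not at hcon
      exact n3 (MvPolynomial.funext fun x => by rw [hcon x, map_zero])
    rw [map_mul, map_mul, map_mul] at hx
    have hx4 := right_ne_zero_of_mul hx
    have hx3 := right_ne_zero_of_mul (left_ne_zero_of_mul hx)
    have hx2 := right_ne_zero_of_mul (left_ne_zero_of_mul (left_ne_zero_of_mul hx))
    have hx1 := left_ne_zero_of_mul (left_ne_zero_of_mul (left_ne_zero_of_mul hx))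
    refine ⟨fun i => x (Sum.inl i), fun i => x (Sum.inr i), ?_, ?_, ?_, ?_⟩
    · simpa [hxa] using hx1
    · simpa [hxb] using hx2
    · rw [← e2]
      exact mul_ne_zero (by norm_num) hx4
    · rw [← e1]
      exact mul_ne_zero (by norm_num) hx3
  -- the maps
  set G12 : MvPolynomial (Fin 5) ℂ := C 3 * gp (fun i j k => S.T (A i) (B j) (B k)) al be be
    with hG12
  set G21 : MvPolynomial (Fin 5) ℂ := C 3 * gp (fun i j k => S.T (A i) (A j) (B k)) al al be
    with hG21
  set φ : Fin 6 → MvPolynomial (Fin 5) ℂ := fun i => G12 * cp A al i - G21 * cp B be i with hφ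
  set ψ : Fin 5 → MvPolynomial (Fin 6) ℂ := ![lin (LA 0) * lin (LB 0), lin (LA 1) * lin (LB 0),
    lin (LA 2) * lin (LB 0), lin (LB 1) * lin (LA 0), lin (LB 2) * lin (LA 0)] with hψ
  have eG12 : ∀ t, eval t G12 = g12 (fun i => eval t (al i)) (fun i => eval t (be i)) := by
    intro t
    rw [hG12, map_mul, eval_C, eval_gp]
  have eG21 : ∀ t, eval t G21 = g21 (fun i => eval t (al i)) (fun i => eval t (be i)) := by
    intro t
    rw [hG21, map_mul, eval_C, eval_gp]
  have eφ : ∀ t, (fun i => eval t (φ i)) =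
      cb A (fun i => eval t G12 * eval t (al i)) + cb B (fun i => -eval t G21 * eval t (be i)) := by
    intro t
    funext i
    rw [cb_smul, cb_smul]
    simp only [hφ, map_sub, map_mul, eval_cp, Pi.add_apply, Pi.smul_apply, smul_eq_mul]
    ring
  have eψ0 : ∀ x, eval x (ψ 0) = LA 0 x * LB 0 x := by
    intro x; simp [hψ, eval_lin]
  have eψ1 : ∀ x, eval x (ψ 1) = LA 1 x * LB 0 x := by
    intro x; simp [hψ, eval_lin]
  have eψ2 : ∀ x, eval x (ψ 2) = LA 2 x * LB 0 x := by
    intro x; simp [hψ, eval_lin]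
  have eψ3 : ∀ x, eval x (ψ 3) = LB 1 x * LA 0 x := by
    intro x; simp [hψ, eval_lin]
  have eψ4 : ∀ x, eval x (ψ 4) = LB 2 x * LA 0 x := by
    intro x; simp [hψ, eval_lin]
  have eal : ∀ x, (fun i => eval (fun j => eval x (ψ j)) (al i)) = fun i => LB 0 x * LA i x := by
    intro x
    funext i
    fin_cases i
    · simp [al, eψ0, mul_comm]
    · simp [al, eψ1, mul_comm]
    · simp [al, eψ2, mul_comm]
  have ebe : ∀ x, (fun i => eval (fun j => eval x (ψ j)) (be i)) = fun i => LA 0 x * LB i x := by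
    intro x
    funext i
    fin_cases i
    · simp [be, eψ0]
    · simp [be, eψ3, mul_comm]
    · simp [be, eψ4, mul_comm]
  have hh : G12.IsHomogeneous 3 := by
    have := (isHomogeneous_C (Fin 5) (3 : ℂ)).mul (gp_hom
      (c := fun i j k => S.T (A i) (B j) (B k)) al_hom be_hom be_hom)
    rwa [zero_add] at this
  have hh' : G21.IsHomogeneous 3 := by
    have := (isHomogeneous_C (Fin 5) (3 : ℂ)).mul (gp_hom
      (c := fun i j k => S.T (A i) (A j) (B k)) al_hom al_hom be_hom)
    rwa [zero_add] at this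
  have hφF : ∀ t, eval (fun i => eval t (φ i)) F = 0 := by
    intro t
    rw [eφ, hTs, ← eG12, ← eG21]
    ring
  -- the special point of four-space
  set t0 : Fin 5 → ℂ := ![a 0 * b 0, b 0 * a 1, b 0 * a 2, a 0 * b 1, a 0 * b 2] with ht0
  have tal : (fun i => eval t0 (al i)) = fun i => b 0 * a i := by
    funext i
    fin_cases i <;> simp [al, ht0] <;> ring
  have tbe : (fun i => eval t0 (be i)) = fun i => a 0 * b i := by
    funext i
    fin_cases i <;> simp [be, ht0]
  have tG12 : eval t0 G12 ≠ 0 := by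
    rw [eG12, tal, tbe, h12s]
    exact mul_ne_zero (mul_ne_zero hb0 (pow_ne_zero 2 ha0)) hab12
  have tG21 : eval t0 G21 ≠ 0 := by
    rw [eG21, tal, tbe, h21s]
    exact mul_ne_zero (mul_ne_zero (pow_ne_zero 2 hb0) ha0) hab21
  have tX : t0 0 ≠ 0 := by
    simp only [ht0, Matrix.cons_val_zero]
    exact mul_ne_zero ha0 hb0
  refine ⟨4, 2, φ, ψ, -(X 0 * G12 * G21), (lin (LA 0) * lin (LB 0)) ^ 2 *
    (C 3 * gp (fun i j k => S.T (A i) (B j) (B k)) (fun i => lin (LA i)) (fun i => lin (LB i))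
      (fun i => lin (LB i))), ?_, ?_, ?_, ?_, ?_, ?_, ?_⟩
  · intro i
    exact (hh.mul (cp_hom al_hom i)).sub (hh'.mul (cp_hom be_hom i))
  · intro j
    have h2 : ∀ L L', (lin L * lin L').IsHomogeneous 2 := fun L L' =>
      (lin_hom L).mul (lin_hom L')
    fin_cases j
    · exact h2 _ _
    · exact h2 _ _
    · exact h2 _ _
    · exact h2 _ _
    · exact h2 _ _
  · apply MvPolynomial.funext
    intro t
    rw [eval_bind, hφF, map_zero]
  · intro h
    have h1 : eval t0 (-(X 0 * G12 * G21)) = 0 := by rw [h, map_zero]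
    rw [map_neg, map_mul, map_mul, eval_X] at h1
    exact neg_ne_zero.mpr (mul_ne_zero (mul_ne_zero tX tG12) tG21) h1
  · intro j
    apply MvPolynomial.funext
    intro t
    rw [eval_bind]
    have hLAφ : ∀ i, LA i (fun i => eval t (φ i)) = eval t G12 * eval t (al i) := by
      intro i
      rw [eφ, hcA]
    have hLBφ : ∀ i, LB i (fun i => eval t (φ i)) = -eval t G21 * eval t (be i) := by
      intro i
      rw [eφ, hcB]
    have a0 : eval t (al 0) = t 0 := by simp [al]
    have a1 : eval t (al 1) = t 1 := by simp [al]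
    have a2 : eval t (al 2) = t 2 := by simp [al]
    have b0 : eval t (be 0) = t 0 := by simp [be]
    have b1 : eval t (be 1) = t 3 := by simp [be]
    have b2 : eval t (be 2) = t 4 := by simp [be]
    have hr : eval t (-(X 0 * G12 * G21) * X j) = -(t 0 * eval t G12 * eval t G21) * t j := by
      simp only [map_mul, map_neg, eval_X]
    rw [hr]
    fin_cases j
    · show eval _ (ψ 0) = _ * t 0
      rw [eψ0, hLAφ, hLBφ, a0, b0]
      ring
    · show eval _ (ψ 1) = _ * t 1
      rw [eψ1, hLAφ, hLBφ, a1, b0]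
      ring
    · show eval _ (ψ 2) = _ * t 2
      rw [eψ2, hLAφ, hLBφ, a2, b0]
      ring
    · show eval _ (ψ 3) = _ * t 3
      rw [eψ3, hLAφ, hLBφ, a0, b1]
      ring
    · show eval _ (ψ 4) = _ * t 4
      rw [eψ4, hLAφ, hLBφ, a0, b2]
      ring
  · rintro ⟨q, hq⟩
    have h1 := congrArg (eval (fun i => eval t0 (φ i))) hq
    rw [map_mul (eval _) F q, hφF, zero_mul] at h1
    simp only [map_mul, map_pow, eval_C, eval_gp, eval_lin] at h1
    have h2 : ∀ i, LA i (fun i => eval t0 (φ i)) = eval t0 G12 * eval t0 (al i) := by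
      intro i
      rw [eφ, hcA]
    have h3 : ∀ i, LB i (fun i => eval t0 (φ i)) = -eval t0 G21 * eval t0 (be i) := by
      intro i
      rw [eφ, hcB]
    simp only [h2, h3] at h1
    have h4 := h12s (fun i => eval t0 (al i)) (fun i => eval t0 (be i)) (eval t0 G12)
      (-eval t0 G21)
    rw [← eG12] at h4
    simp only [hg12] at h4
    rw [h4] at h1
    have a0 : eval t0 (al 0) = t0 0 := by simp [al]
    have b0 : eval t0 (be 0) = t0 0 := by simp [be]
    rw [a0, b0] at h1
    exact mul_ne_zero (pow_ne_zero 2 (mul_ne_zero (mul_ne_zero tG12 tX)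
      (mul_ne_zero (neg_ne_zero.mpr tG21) tX))) (mul_ne_zero (mul_ne_zero tG12
        (pow_ne_zero 2 (neg_ne_zero.mpr tG21))) tG12) h1
  · intro i
    refine ⟨-(lin (LA 0) * lin (LB 0)) ^ 2 * cp B (fun j => lin (LB j)) i, ?_⟩
    apply MvPolynomial.funext
    intro x
    have hx := hTs (fun i => LA i x) (fun i => LB i x) 1 1
    simp only [one_mul, one_pow, hsum x] at hx
    rw [map_sub, eval_bind]
    have h1 := congrFun (eφ (fun j => eval x (ψ j))) i
    rw [h1, eG12, eG21]
    have heal := fun i => congrFun (eal x) i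
    have hebe := fun i => congrFun (ebe x) i
    simp only [heal, hebe, h12s, h21s, cb_smul]
    have hxi : x i = cb A (fun i => LA i x) i + cb B (fun i => LB i x) i := by
      conv_lhs => rw [← hsum x]
      rfl
    have hg : g12 (fun i => LA i x) (fun i => LB i x) =
        3 * S.T (cb A fun i => LA i x) (cb B fun i => LB i x) (cb B fun i => LB i x) := rfl
    simp only [map_mul, map_pow, map_neg, eval_C, eval_gp, eval_lin, eval_X, eval_cp,
      Pi.add_apply, Pi.smul_apply, smul_eq_mul]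
    rw [hx, hxi, ← hg]
    ring

end Vale.Agent.P287.R2.H414
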