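import Vale.Agent.P287.R2.H414.Det

/-!
P287: frames adapted to a plane and to a pair of planes that meet in a point.
-/

namespace Vale.Agent.P287.R2.H414

open Module Submodule Vale.Agent.P287.R2.H248

variable {V : Type*} [AddCommGroup V] [Module ℂ V]

lemma le_of_basis {n : ℕ} {U W : Submodule ℂ V} (b : Basis (Fin n) ℂ U)
    (h : ∀ i, (b i : V) ∈ W) : U ≤ W := by
  intro x hx
  have h1 : ((∑ i, b.repr ⟨x, hx⟩ i • b i : U) : V) = x := by rw [b.sum_repr]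
  have h2 : ((∑ i, b.repr ⟨x, hx⟩ i • b i : U) : V) ∈ W := by
    rw [AddSubmonoidClass.coe_finsetSum]
    exact sum_mem fun i _ => W.smul_mem _ (h i)
  rwa [h1] at h2

/-- Scaling the last vector of a basis, one gets determinant one. -/
lemma exists_scale (e0 e1 : Basis (Fin 3 ⊕ Fin 3) ℂ V) :
    ∃ e : Basis (Fin 3 ⊕ Fin 3) ℂ V, (∀ i, i ≠ Sum.inr 2 → e i = e1 i) ∧ e0.det e = 1 := by
  classical
  have hd : IsUnit (e0.det e1) := e0.isUnit_det e1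
  obtain ⟨d, hd⟩ := hd
  set w : (Fin 3 ⊕ Fin 3) → ℂˣ := fun i => if i = Sum.inr 2 then d⁻¹ else 1 with hw
  refine ⟨e1.unitsSMul w, ?_, ?_⟩
  · intro i hi
    rw [Basis.unitsSMul_apply, hw]
    simp [hi]
  · have h1 : (⇑(e1.unitsSMul w)) = fun i => (w i : ℂ) • e1 i := by
      funext i
      rw [Basis.unitsSMul_apply]
      rfl
    rw [h1]
    have h2 := e0.det.toMultilinearMap.map_smul_univ (fun i => (w i : ℂ)) e1
    rw [AlternatingMap.coe_multilinearMap] at h2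
    rw [h2, ← hd]
    have h3 : ∏ i, (w i : ℂ) = (d⁻¹ : ℂˣ) := by
      rw [Finset.prod_eq_single (Sum.inr 2)]
      · simp [hw]
      · intro i _ hi
        simp [hw, hi]
      · simp
    rw [h3, smul_eq_mul, Units.inv_mul]

theorem exists_frame [FiniteDimensional ℂ V] (hV : finrank ℂ V = 6)
    (e0 : Basis (Fin 3 ⊕ Fin 3) ℂ V) {P : Submodule ℂ V} (hP : finrank ℂ P = 3) :
    ∃ e : Basis (Fin 3 ⊕ Fin 3) ℂ V, (∀ i, e (Sum.inl i) ∈ P) ∧ e0.det e = 1 := by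
  obtain ⟨Q, hc⟩ := P.exists_isCompl
  have hQ : finrank ℂ Q = 3 := by
    have := Submodule.finrank_add_eq_of_isCompl hc
    omega
  set bP := finBasisOfFinrankEq ℂ P hP
  set bQ := finBasisOfFinrankEq ℂ Q hQ
  set e1 := (bP.prod bQ).map (Submodule.prodEquivOfIsCompl P Q hc) with he1
  obtain ⟨e, he, hdet⟩ := exists_scale e0 e1
  refine ⟨e, fun i => ?_, hdet⟩
  rw [he _ (by simp), he1]
  simp

theorem exists_pair_frame [FiniteDimensional ℂ V] (hV : finrank ℂ V = 6)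
    (e0 : Basis (Fin 3 ⊕ Fin 3) ℂ V) {P Q : Submodule ℂ V} (hP : finrank ℂ P = 3)
    (hQ : finrank ℂ Q = 3) (hPQ : finrank ℂ ↥(P ⊓ Q) = 1) :
    ∃ e e' : Basis (Fin 3 ⊕ Fin 3) ℂ V, (∀ i, e (Sum.inl i) ∈ P) ∧ (∀ i, e' (Sum.inl i) ∈ Q) ∧
      e0.det e = 1 ∧ e0.det e' = 1 ∧ e' (Sum.inl 0) = e (Sum.inl 0) ∧
      e' (Sum.inl 1) = e (Sum.inr 0) ∧ e' (Sum.inl 2) = e (Sum.inr 1) ∧
      e' (Sum.inr 0) = e (Sum.inl 1) ∧ e' (Sum.inr 1) = e (Sum.inl 2) ∧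
      e' (Sum.inr 2) = e (Sum.inr 2) := by
  classical
  obtain ⟨C, hc⟩ := (P ⊓ Q).exists_isCompl
  have hPs : (P ⊓ Q) ⊔ (C ⊓ P) = P := by
    rw [← sup_inf_assoc_of_le _ (inf_le_left : P ⊓ Q ≤ P), hc.sup_eq_top, top_inf_eq]
  have hQs : (P ⊓ Q) ⊔ (C ⊓ Q) = Q := by
    rw [← sup_inf_assoc_of_le _ (inf_le_right : P ⊓ Q ≤ Q), hc.sup_eq_top, top_inf_eq]
  have hPd : (P ⊓ Q) ⊓ (C ⊓ P) = ⊥ :=
    (hc.disjoint.mono_right inf_le_left).eq_bot
  have hQd : (P ⊓ Q) ⊓ (C ⊓ Q) = ⊥ :=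
    (hc.disjoint.mono_right inf_le_left).eq_bot
  have hP2 : finrank ℂ ↥(C ⊓ P) = 2 := by
    have := Submodule.finrank_sup_add_finrank_inf_eq (P ⊓ Q) (C ⊓ P)
    rw [hPs, hPd, finrank_bot, hP, hPQ] at this
    omega
  have hQ2 : finrank ℂ ↥(C ⊓ Q) = 2 := by
    have := Submodule.finrank_sup_add_finrank_inf_eq (P ⊓ Q) (C ⊓ Q)
    rw [hQs, hQd, finrank_bot, hQ, hPQ] at this
    omega
  have h5 : finrank ℂ ↥(P ⊔ Q) = 5 := by
    have := Submodule.finrank_sup_add_finrank_inf_eq P Q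
    rw [hP, hQ, hPQ] at this
    omega
  obtain ⟨k, hk⟩ := exists_not_mem (U := P ⊔ Q) (by rw [h5, hV]; norm_num)
  set bD := finBasisOfFinrankEq ℂ ↥(P ⊓ Q) hPQ
  set bP := finBasisOfFinrankEq ℂ ↥(C ⊓ P) hP2
  set bQ := finBasisOfFinrankEq ℂ ↥(C ⊓ Q) hQ2
  set w : Fin 3 ⊕ Fin 3 → V := Sum.elim ![(bD 0 : V), (bP 0 : V), (bP 1 : V)]
    ![(bQ 0 : V), (bQ 1 : V), k] with hw
  have hmem : ∀ i, w i ∈ span ℂ (Set.range w) := fun i => subset_span ⟨i, rfl⟩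
  have hD : P ⊓ Q ≤ span ℂ (Set.range w) := by
    refine le_of_basis bD fun i => ?_
    fin_cases i
    exact hmem (Sum.inl 0)
  have hP' : C ⊓ P ≤ span ℂ (Set.range w) := by
    refine le_of_basis bP fun i => ?_
    fin_cases i
    · exact hmem (Sum.inl 1)
    · exact hmem (Sum.inl 2)
  have hQ' : C ⊓ Q ≤ span ℂ (Set.range w) := by
    refine le_of_basis bQ fun i => ?_
    fin_cases i
    · exact hmem (Sum.inr 0)
    · exact hmem (Sum.inr 1)
  have hPw : P ≤ span ℂ (Set.range w) := by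
    conv_lhs => rw [← hPs]
    exact sup_le hD hP'
  have hQw : Q ≤ span ℂ (Set.range w) := by
    conv_lhs => rw [← hQs]
    exact sup_le hD hQ'
  have htop : ⊤ ≤ span ℂ (Set.range w) := by
    have h6 : (P ⊔ Q) ⊔ span ℂ {k} = ⊤ := by
      apply Submodule.eq_top_of_finrank_eq
      rw [finrank_sup_single hk, h5, hV]
    rw [← h6]
    refine sup_le (sup_le hPw hQw) ?_
    rw [span_le, Set.singleton_subset_iff]
    exact hmem (Sum.inr 2)
  set e1 := basisOfTopLeSpanOfCardEqFinrank w htop (by rw [hV]; rfl) with he1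
  have he1w : ∀ i, e1 i = w i := fun i => by
    rw [he1, coe_basisOfTopLeSpanOfCardEqFinrank]
  obtain ⟨e, he, hdet⟩ := exists_scale e0 e1
  set σ : Equiv.Perm (Fin 3 ⊕ Fin 3) := Equiv.swap (Sum.inl 1) (Sum.inr 0) *
    Equiv.swap (Sum.inl 2) (Sum.inr 1) with hσ
  have heq : ∀ i, (e.reindex σ.symm) i = e (σ i) := fun i => by
    rw [Basis.reindex_apply, Equiv.symm_symm]
  have s0 : σ (Sum.inl 0) = Sum.inl 0 := by decide
  have s1 : σ (Sum.inl 1) = Sum.inr 0 := by decide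
  have s2 : σ (Sum.inl 2) = Sum.inr 1 := by decide
  have s3 : σ (Sum.inr 0) = Sum.inl 1 := by decide
  have s4 : σ (Sum.inr 1) = Sum.inl 2 := by decide
  have s5 : σ (Sum.inr 2) = Sum.inr 2 := by decide
  have hsign : Equiv.Perm.sign σ = 1 := by decide
  refine ⟨e, e.reindex σ.symm, ?_, ?_, hdet, ?_, ?_, ?_, ?_, ?_, ?_, ?_⟩
  · intro i
    rw [he _ (by simp), he1w]
    fin_cases i
    · exact (bD 0).2.1
    · exact (bP 0).2.2
    · exact (bP 1).2.2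
  · intro i
    rw [heq]
    fin_cases i
    · show e (σ (Sum.inl 0)) ∈ Q
      rw [s0, he _ (by simp), he1w]
      exact (bD 0).2.2
    · show e (σ (Sum.inl 1)) ∈ Q
      rw [s1, he _ (by decide), he1w]
      exact (bQ 0).2.2
    · show e (σ (Sum.inl 2)) ∈ Q
      rw [s2, he _ (by decide), he1w]
      exact (bQ 1).2.2
  · have h1 : (⇑(e.reindex σ.symm)) = e ∘ σ := funext heq
    rw [h1, AlternatingMap.map_perm, hsign, one_smul, hdet]
  · rw [heq, s0]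
  · rw [heq, s1]
  · rw [heq, s2]
  · rw [heq, s3]
  · rw [heq, s4]
  · rw [heq, s5]

end Vale.Agent.P287.R2.H414
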