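import Vale.Agent.P287.R2.H248.Lines

/-!
P287: the dimension count in the space of cubic forms in six variables: `56 - 36 = 20`.
-/

namespace Vale.Agent.P287.R2.H414

open Module Submodule Vale.Agent.P287.R2.H248

/-- The cubic forms on `V`, as functions. -/
def Cub (V : Type*) [AddCommGroup V] [Module ℂ V] : Submodule ℂ (V → ℂ) :=
  Submodule.span ℂ {f | ∃ a b c : V →ₗ[ℂ] ℂ, f = fun x => a x * b x * c x}

variable {V : Type*} [AddCommGroup V] [Module ℂ V]

/-- The cubic monomials in a basis. -/
noncomputable def mono {n : ℕ} (e : Basis (Fin n) ℂ V) (s : Sym (Fin n) 3) : V → ℂ :=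
  fun x => ((s : Multiset (Fin n)).map fun i => e.coord i x).prod

lemma mono_mem {n : ℕ} (e : Basis (Fin n) ℂ V) (i j k : Fin n) :
    (fun x => e.coord i x * e.coord j x * e.coord k x) ∈ span ℂ (Set.range (mono e)) := by
  apply subset_span
  refine ⟨Sym.cons i (Sym.cons j (Sym.cons k Sym.nil)), ?_⟩
  funext x
  change (Multiset.map (fun m => e.coord m x) (i ::ₘ j ::ₘ k ::ₘ 0)).prod = _
  simp [mul_assoc]

lemma sum_coord {n : ℕ} (e : Basis (Fin n) ℂ V) (a : V →ₗ[ℂ] ℂ) (x : V) :
    a x = ∑ i, a (e i) * e.coord i x := by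
  conv_lhs => rw [← e.sum_repr x]
  rw [map_sum]
  refine Finset.sum_congr rfl fun i _ => ?_
  rw [map_smul, smul_eq_mul, mul_comm]
  rfl

lemma cub_le {n : ℕ} (e : Basis (Fin n) ℂ V) : Cub V ≤ span ℂ (Set.range (mono e)) := by
  rw [Cub, span_le]
  rintro f ⟨a, b, c, rfl⟩
  have h : (fun x => a x * b x * c x) = ∑ i, ∑ j, ∑ k, (a (e i) * b (e j) * c (e k)) •
      (fun x => e.coord i x * e.coord j x * e.coord k x) := by
    funext x
    rw [sum_coord e a, sum_coord e b, sum_coord e c]
    simp only [Finset.sum_apply, Pi.smul_apply, smul_eq_mul]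
    rw [Finset.sum_mul_sum, Finset.sum_mul]
    refine Finset.sum_congr rfl fun i _ => ?_
    rw [Finset.sum_mul]
    refine Finset.sum_congr rfl fun j _ => ?_
    rw [Finset.mul_sum]
    refine Finset.sum_congr rfl fun k _ => ?_
    ring
  rw [h]
  exact sum_mem fun i _ => sum_mem fun j _ => sum_mem fun k _ => smul_mem _ _ (mono_mem e i j k)

lemma tri_mem (S : Tri V) [FiniteDimensional ℂ V] (A : V →ₗ[ℂ] V) :
    (fun x => S.T x x (A x)) ∈ Cub V := by
  set e := finBasis ℂ V
  have h : (fun x => S.T x x (A x)) = ∑ i, ∑ j,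
      (fun x => e.coord i x * e.coord j x * (S.T (e i) (e j) ∘ₗ A) x) := by
    funext x
    have h1 : S.T x = ∑ i, e.repr x i • S.T (e i) := by
      conv_lhs => rw [← e.sum_repr x]
      rw [map_sum]
      exact Finset.sum_congr rfl fun i _ => map_smul _ _ _
    have h2 : ∀ i, S.T (e i) x = ∑ j, e.repr x j • S.T (e i) (e j) := by
      intro i
      conv_lhs => rw [← e.sum_repr x]
      rw [map_sum]
      exact Finset.sum_congr rfl fun j _ => map_smul _ _ _
    have h3 : S.T x x (A x) = ∑ i, ∑ j, e.repr x i * (e.repr x j * S.T (e i) (e j) (A x)) := by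
      rw [h1]
      simp only [LinearMap.sum_apply, LinearMap.smul_apply, smul_eq_mul]
      refine Finset.sum_congr rfl fun i _ => ?_
      rw [h2 i]
      simp only [LinearMap.sum_apply, LinearMap.smul_apply, smul_eq_mul, Finset.mul_sum]
    rw [h3]
    simp only [Finset.sum_apply, Basis.coord_apply, LinearMap.comp_apply]
    exact Finset.sum_congr rfl fun i _ => Finset.sum_congr rfl fun j _ => by ring
  rw [h]
  exact sum_mem fun i _ => sum_mem fun j _ => subset_span ⟨_, _, _, rfl⟩

theorem count [FiniteDimensional ℂ V] (hV : finrank ℂ V = 6) (S : Tri V)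
    (hinj : ∀ A : V →ₗ[ℂ] V, (∀ x, S.T x x (A x) = 0) → A = 0) {N : ℕ} (δ : Fin N → V → ℂ)
    (hδ : ∀ j, δ j ∈ Cub V)
    (hind : ∀ (c : Fin N → ℂ) (A : V →ₗ[ℂ] V),
      (∀ x, ∑ j, c j * δ j x = S.T x x (A x)) → ∀ j, c j = 0) : N ≤ 20 := by
  classical
  set e := finBasisOfFinrankEq ℂ V hV
  set W : Submodule ℂ (V → ℂ) := span ℂ (Set.range (mono e)) with hW
  have hfin : FiniteDimensional ℂ W := FiniteDimensional.span_of_finite ℂ (Set.finite_range _)
  have hdim : finrank ℂ W ≤ 56 := by
    have h1 := finrank_range_le_card (R := ℂ) (mono e)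
    have h2 : Fintype.card (Sym (Fin 6) 3) = 56 := by
      rw [Sym.card_sym_eq_choose]
      decide
    rw [h2] at h1
    exact h1
  let φ : ((Fin N → ℂ) × (V →ₗ[ℂ] V)) →ₗ[ℂ] (V → ℂ) :=
    { toFun := fun p x => (∑ j, p.1 j * δ j x) - S.T x x (p.2 x)
      map_add' := by
        intro p q
        funext x
        simp only [Prod.fst_add, Prod.snd_add, Pi.add_apply, LinearMap.add_apply, map_add, add_mul,
          Finset.sum_add_distrib]
        ring
      map_smul' := by
        intro c p
        funext x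
        simp only [Prod.smul_fst, Prod.smul_snd, Pi.smul_apply, LinearMap.smul_apply, map_smul,
          smul_eq_mul, RingHom.id_apply, mul_sub, Finset.mul_sum, mul_assoc] }
  have hmem : ∀ p, φ p ∈ W := by
    intro p
    have h1 : φ p = (∑ j, p.1 j • δ j) - fun x => S.T x x (p.2 x) := by
      funext x
      simp [φ]
    rw [h1]
    apply cub_le e
    exact sub_mem (sum_mem fun j _ => smul_mem _ _ (hδ j)) (tri_mem S p.2)
  have hinjφ : Function.Injective (φ.codRestrict W hmem) := by
    rw [LinearMap.ker_eq_bot.symm, LinearMap.ker_codRestrict, LinearMap.ker_eq_bot']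
    rintro ⟨c, A⟩ h
    have h1 : ∀ x, ∑ j, c j * δ j x = S.T x x (A x) := by
      intro x
      have := congrFun h x
      exact sub_eq_zero.mp this
    have h2 : c = 0 := funext (hind c A h1)
    have h3 : A = 0 := by
      apply hinj
      intro x
      rw [← h1 x, h2]
      simp
    rw [h2, h3]
    rfl
  have h1 := LinearMap.finrank_le_finrank_of_injective hinjφ
  rw [finrank_prod, finrank_fin_fun, finrank_linearMap, hV] at h1
  omega

end Vale.Agent.P287.R2.H414
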