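import Vale.Agent.P287.R2.H414.Adapt
import Vale.Agent.P287.R2.H622.Frame

/-!
P287: the cubic form of a frame is a cubic form.
-/

namespace Vale.Agent.P287.R2.H414

open Module Submodule Vale.Agent.P287.R2.H248 Vale.Agent.P287.R2.H622

variable {V : Type*} [AddCommGroup V] [Module ℂ V]

theorem dl_mem (S : Tri V) (e : Basis (Fin 3 ⊕ Fin 3) ℂ V) : dl S e ∈ Cub V :=
  delta_mem S (prj e) (fun i => e (Sum.inl i)) (fun j => e (Sum.inr j))

end Vale.Agent.P287.R2.H414
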