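import Mathlib

/-!
P287, sharp bound, row B: Bezout for an irreducible polynomial in two variables.
-/

namespace Vale.Agent.P287.R2.H414

open MvPolynomial Module

/-- polynomials of degree at most `n` in two variables -/
noncomputable abbrev PV (n : ℕ) : Submodule ℂ (MvPolynomial (Fin 2) ℂ) := restrictTotalDegree (Fin 2) ℂ n

lemma finrank_PV (n : ℕ) : 2 * finrank ℂ (PV n) = (n + 1) * (n + 2) := by
  classical
  let T : Finset (ℕ × ℕ) := (Finset.range (n + 1)).biUnion Finset.HasAntidiagonal.antidiagonal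
  have hT : ∀ p : ℕ × ℕ, p ∈ T ↔ p.1 + p.2 ≤ n := by
    intro p
    simp only [T, Finset.mem_biUnion, Finset.mem_range, Finset.HasAntidiagonal.mem_antidiagonal]
    constructor
    · rintro ⟨m, hm, h⟩
      omega
    · intro h
      exact ⟨p.1 + p.2, by omega, rfl⟩
  have h1 : finrank ℂ (PV n) = Nat.card {s : Fin 2 →₀ ℕ | (s.sum fun _ e => e) ≤ n} :=
    Module.finrank_eq_nat_card_basis (basisRestrictSupport ℂ _)
  let e : (Fin 2 →₀ ℕ) ≃ ℕ × ℕ := Finsupp.equivFunOnFinite.trans (finTwoArrowEquiv ℕ)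
  have h2 : Nat.card {s : Fin 2 →₀ ℕ | (s.sum fun _ e => e) ≤ n} = Nat.card {p // p ∈ T} := by
    apply Nat.card_congr
    apply e.subtypeEquiv
    intro s
    rw [hT]
    change (s.sum fun _ e => e) ≤ n ↔ s 0 + s 1 ≤ n
    rw [Finsupp.sum_fintype _ _ (fun _ => rfl), Fin.sum_univ_two]
  have h3 : T.card = ∑ m ∈ Finset.range (n + 1), (m + 1) := by
    rw [Finset.card_biUnion]
    · exact Finset.sum_congr rfl fun m _ => Finset.Nat.card_antidiagonal m
    · intro i _ j _ hij
      rw [Function.onFun, Finset.disjoint_left]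
      intro p hp hp'
      rw [Finset.HasAntidiagonal.mem_antidiagonal] at hp hp'
      exact hij (hp.symm.trans hp')
  have h4 : ∀ n : ℕ, 2 * ∑ m ∈ Finset.range (n + 1), (m + 1) = (n + 1) * (n + 2) := by
    intro n
    induction n with
    | zero => simp
    | succ n ih =>
      rw [Finset.sum_range_succ, mul_add, ih]
      ring
  rw [h1, h2, Nat.card_eq_fintype_card, Fintype.card_coe, h3, h4]

/-- A polynomial of degree less than the number of points, which vanishes at all the points but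
one. -/
lemma exists_sep (s : Finset (Fin 2 → ℂ)) (x : Fin 2 → ℂ) :
    ∃ p : MvPolynomial (Fin 2) ℂ, p.totalDegree ≤ s.card ∧ eval x p ≠ 0 ∧
      ∀ y ∈ s, y ≠ x → eval y p = 0 := by
  classical
  have h : ∀ y : Fin 2 → ℂ, ∃ i, y ≠ x → x i ≠ y i := by
    intro y
    by_cases hy : y = x
    · exact ⟨0, fun h => absurd hy h⟩
    · obtain ⟨i, hi⟩ := Function.ne_iff.mp hy
      exact ⟨i, fun _ h => hi h.symm⟩
  choose i hi using h
  refine ⟨∏ y ∈ s.erase x, (X (i y) - C (y (i y))), ?_, ?_, ?_⟩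
  · refine (totalDegree_finsetProd _ _).trans ?_
    refine (Finset.sum_le_sum (g := fun _ => 1) fun y _ => ?_).trans ?_
    · refine (totalDegree_sub _ _).trans ?_
      rw [totalDegree_X, totalDegree_C]
      simp
    · rw [Finset.sum_const, smul_eq_mul, mul_one]
      exact Finset.card_le_card (Finset.erase_subset _ _)
  · rw [map_prod]
    refine Finset.prod_ne_zero_iff.mpr fun y hy => ?_
    rw [map_sub, eval_X, eval_C]
    exact sub_ne_zero.mpr (hi y (Finset.ne_of_mem_erase hy))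
  · intro y hy hyx
    rw [map_prod]
    refine Finset.prod_eq_zero (Finset.mem_erase.mpr ⟨hyx, hy⟩) ?_
    rw [map_sub, eval_X, eval_C, sub_self]

/-- Evaluation at the points of `s`. -/
noncomputable def ev (s : Finset (Fin 2 → ℂ)) (k : ℕ) : PV k →ₗ[ℂ] (s → ℂ) :=
  LinearMap.pi fun x => (MvPolynomial.aeval (R := ℂ) (x : Fin 2 → ℂ)).toLinearMap ∘ₗ (PV k).subtype

lemma ev_apply (s : Finset (Fin 2 → ℂ)) (k : ℕ) (p : PV k) (x : s) :
    ev s k p x = eval (x : Fin 2 → ℂ) (p : MvPolynomial (Fin 2) ℂ) := by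
  change MvPolynomial.aeval (R := ℂ) (x : Fin 2 → ℂ) (p : MvPolynomial (Fin 2) ℂ) = _
  exact RingHom.congr_fun (MvPolynomial.coe_aeval_eq_eval _) _

lemma ev_surjective (s : Finset (Fin 2 → ℂ)) {k : ℕ} (hk : s.card ≤ k) :
    Function.Surjective (ev s k) := by
  classical
  intro c
  have h : ∀ x : s, ∃ p : PV k, eval (x : Fin 2 → ℂ) (p : MvPolynomial (Fin 2) ℂ) ≠ 0 ∧
      ∀ y : s, y ≠ x → eval (y : Fin 2 → ℂ) (p : MvPolynomial (Fin 2) ℂ) = 0 := by
    intro x
    obtain ⟨p, h1, h2, h3⟩ := exists_sep s x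
    exact ⟨⟨p, (mem_restrictTotalDegree _ _ _).mpr (h1.trans hk)⟩, h2,
      fun y hy => h3 y y.2 fun h => hy (Subtype.ext h)⟩
  choose p hp0 hp using h
  refine ⟨∑ x : s, (c x / eval (x : Fin 2 → ℂ) (p x : MvPolynomial (Fin 2) ℂ)) • p x, ?_⟩
  funext y
  rw [map_sum, Finset.sum_apply, Finset.sum_eq_single y]
  · rw [map_smul, Pi.smul_apply, ev_apply, smul_eq_mul, div_mul_cancel₀ _ (hp0 y)]
  · intro x _ hxy
    rw [map_smul, Pi.smul_apply, ev_apply, hp x y hxy.symm, smul_zero]
  · intro h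
    exact absurd (Finset.mem_univ y) h

/-- ROW B: Bezout for an irreducible polynomial. -/
theorem row_B (f g : MvPolynomial (Fin 2) ℂ) (hf : Irreducible f) (hfg : ¬ f ∣ g)
    (s : Finset (Fin 2 → ℂ)) (hs : ∀ x ∈ s, eval x f = 0 ∧ eval x g = 0) :
    s.card ≤ f.totalDegree * g.totalDegree := by
  classical
  set a := f.totalDegree with ha
  set b := g.totalDegree with hb
  set n := s.card with hn
  have hf0 : f ≠ 0 := hf.ne_zero
  have hg0 : g ≠ 0 := fun h => hfg (h ▸ dvd_zero f)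
  have hprime : Prime f := hf.prime
  -- the map `(u, v) ↦ f u + g v`
  have hmem : ∀ (c : MvPolynomial (Fin 2) ℂ) {j k : ℕ} (_ : c.totalDegree + j ≤ k) (u : PV j),
      c * (u : MvPolynomial (Fin 2) ℂ) ∈ PV k := by
    intro c j k hjk u
    rw [mem_restrictTotalDegree]
    have hu := (mem_restrictTotalDegree _ _ _).mp u.2
    exact (totalDegree_mul _ _).trans (by omega)
  let mulL : ∀ (c : MvPolynomial (Fin 2) ℂ) {j k : ℕ} (_ : c.totalDegree + j ≤ k),
      PV j →ₗ[ℂ] PV k := fun c j k hjk =>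
    { toFun := fun u => ⟨c * (u : MvPolynomial (Fin 2) ℂ), hmem c hjk u⟩
      map_add' := fun u v => Subtype.ext (mul_add _ _ _)
      map_smul' := fun t u => Subtype.ext (mul_smul_comm _ _ _) }
  have hmulL : ∀ (c : MvPolynomial (Fin 2) ℂ) {j k : ℕ} (h : c.totalDegree + j ≤ k) (u : PV j),
      ((mulL c h u : PV k) : MvPolynomial (Fin 2) ℂ) = c * u := fun _ _ _ _ _ => rfl
  let k := n + a + b
  let Φ : (PV (n + b) × PV (n + a)) →ₗ[ℂ] PV (n + a + b) :=
    (mulL f (by omega)).coprod (mulL g (by omega))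
  have hΦ : ∀ p, ((Φ p : PV (n + a + b)) : MvPolynomial (Fin 2) ℂ) = f * p.1 + g * p.2 := by
    intro p
    rfl
  let Ψ : PV n →ₗ[ℂ] (PV (n + b) × PV (n + a)) :=
    (-(mulL g (by omega))).prod (mulL f (by omega))
  have hker : LinearMap.ker Φ ≤ LinearMap.range Ψ := by
    rintro ⟨u, v⟩ h
    have h1 : f * (u : MvPolynomial (Fin 2) ℂ) + g * (v : MvPolynomial (Fin 2) ℂ) = 0 := by
      have h2 := congrArg (Subtype.val) (LinearMap.mem_ker.mp h)
      exact h2
    have h2 : f ∣ g * (v : MvPolynomial (Fin 2) ℂ) := by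
      refine ⟨-u, ?_⟩
      linear_combination h1
    obtain ⟨w, hw⟩ := (hprime.dvd_or_dvd h2).resolve_left hfg
    have h3 : (u : MvPolynomial (Fin 2) ℂ) = -(g * w) := by
      apply mul_left_cancel₀ hf0
      rw [hw] at h1
      linear_combination h1
    have hwn : w.totalDegree ≤ n := by
      by_cases hw0 : w = 0
      · rw [hw0, totalDegree_zero]
        omega
      · have h4 := (mem_restrictTotalDegree _ _ _).mp v.2
        rw [hw, totalDegree_mul_of_isDomain hf0 hw0] at h4
        omega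
    refine ⟨⟨w, (mem_restrictTotalDegree _ _ _).mpr hwn⟩, ?_⟩
    refine Prod.ext (Subtype.ext ?_) (Subtype.ext ?_)
    · exact h3.symm
    · exact hw.symm
  have hle : LinearMap.range Φ ≤ LinearMap.ker (ev s (n + a + b)) := by
    rintro _ ⟨p, rfl⟩
    rw [LinearMap.mem_ker]
    funext x
    rw [ev_apply, hΦ, map_add, map_mul, map_mul, (hs x x.2).1, (hs x x.2).2]
    simp
  have d1 := LinearMap.finrank_range_add_finrank_ker Φ
  rw [finrank_prod] at d1
  have d2 : finrank ℂ (LinearMap.ker Φ) ≤ finrank ℂ (PV n) :=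
    (Submodule.finrank_mono hker).trans (LinearMap.finrank_range_le Ψ)
  have d3 := Submodule.finrank_mono hle
  have d4 := LinearMap.finrank_range_add_finrank_ker (ev s (n + a + b))
  rw [LinearMap.range_eq_top.mpr (ev_surjective s (by omega)), finrank_top,
    Module.finrank_fintype_fun_eq_card, Fintype.card_coe] at d4
  have e1 := finrank_PV n
  have e2 := finrank_PV (n + a)
  have e3 := finrank_PV (n + b)
  have e4 := finrank_PV (n + a + b)
  nlinarith

end Vale.Agent.P287.R2.H414
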