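import Vale.Agent.P287.R2.H414.Count

/-!
P287: a three by three determinant of linear forms is a cubic form.
-/

namespace Vale.Agent.P287.R2.H414

open Module Submodule Vale.Agent.P287.R2.H248

variable {V : Type*} [AddCommGroup V] [Module ℂ V]

lemma mul3_mem (a b c : V →ₗ[ℂ] ℂ) : (fun x => a x * b x * c x) ∈ Cub V :=
  subset_span ⟨a, b, c, rfl⟩

lemma det_mem (M : Fin 3 → Fin 3 → (V →ₗ[ℂ] ℂ)) :
    (fun x => (Matrix.of fun i j => M i j x).det) ∈ Cub V := by
  have h : (fun x => (Matrix.of fun i j => M i j x).det) =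
      (fun x => M 0 0 x * M 1 1 x * M 2 2 x) - (fun x => M 0 0 x * M 1 2 x * M 2 1 x) -
      (fun x => M 0 1 x * M 1 0 x * M 2 2 x) + (fun x => M 0 1 x * M 1 2 x * M 2 0 x) +
      (fun x => M 0 2 x * M 1 0 x * M 2 1 x) - (fun x => M 0 2 x * M 1 1 x * M 2 0 x) := by
    funext x
    rw [Matrix.det_fin_three]
    rfl
  rw [h]
  exact sub_mem (add_mem (add_mem (sub_mem (sub_mem (mul3_mem _ _ _) (mul3_mem _ _ _))
    (mul3_mem _ _ _)) (mul3_mem _ _ _)) (mul3_mem _ _ _)) (mul3_mem _ _ _)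

/-- The cubic form `x ↦ det T(x + π x, b i, k j)`. -/
lemma delta_mem (S : Tri V) (π : V →ₗ[ℂ] V) (b k : Fin 3 → V) :
    (fun x => (Matrix.of fun i j => S.T (x + π x) (b i) (k j)).det) ∈ Cub V := by
  have h := det_mem (V := V) fun i j =>
    ((S.T.flip (b i)).flip (k j)) ∘ₗ (LinearMap.id + π)
  simpa using h

end Vale.Agent.P287.R2.H414
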