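import Mathlib

/-! P287 (helper414), sharpness, row S2a: four linear forms on a plane whose cubes sum to zero. -/

namespace Vale.Agent.P287.R2.H414

open Module Submodule

lemma four_alg {a b c d : ℂ}
    (h : ∀ s t : ℂ, s ^ 3 + t ^ 3 + (a * s + b * t) ^ 3 + (c * s + d * t) ^ 3 = 0) :
    (a = 0 ∧ d = 0 ∧ b ^ 3 = -1 ∧ c ^ 3 = -1) ∨ (b = 0 ∧ c = 0 ∧ a ^ 3 = -1 ∧ d ^ 3 = -1) := by
  have h1 := h 1 0
  have h2 := h 0 1
  have h3 := h 1 1
  have h4 := h 1 (-1)
  have e1 : 1 + a ^ 3 + c ^ 3 = 0 := by linear_combination h1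
  have e2 : 1 + b ^ 3 + d ^ 3 = 0 := by linear_combination h2
  have e3 : a * b ^ 2 + c * d ^ 2 = 0 := by linear_combination (h3 + h4) / 6 - e1 / 3
  have e4 : a ^ 2 * b + c ^ 2 * d = 0 := by linear_combination h3 / 3 - e1 / 3 - e2 / 3 - e3
  have e5 : a ^ 3 * b ^ 3 = c ^ 3 * d ^ 3 := by
    linear_combination a ^ 2 * b * e3 - c * d ^ 2 * e4
  have e6 : 1 + a ^ 3 + b ^ 3 = 0 := by
    linear_combination (1 + b ^ 3) * e1 - c ^ 3 * e2 - e5
  have e7 : c ^ 3 = b ^ 3 := by linear_combination e1 - e6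
  have e8 : d ^ 3 = a ^ 3 := by linear_combination e2 - e6
  have e9 : (a ^ 2 * b) ^ 3 + (c ^ 2 * d) ^ 3 = 0 := by
    linear_combination ((a ^ 2 * b) ^ 2 - (a ^ 2 * b) * (c ^ 2 * d) + (c ^ 2 * d) ^ 2) * e4
  have e10 : (c ^ 2 * d) ^ 3 = (b ^ 3) ^ 2 * a ^ 3 := by
    rw [← e7, ← e8]
    ring
  have e11 : (a * b) ^ 3 = 0 := by
    linear_combination a ^ 3 * b ^ 3 * e6 - e9 + e10
  have hab : a * b = 0 := pow_eq_zero_iff (n := 3) (by norm_num) |>.mp e11
  have e12 : (c * d) ^ 3 = 0 := by linear_combination e11 - e5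
  have hcd : c * d = 0 := pow_eq_zero_iff (n := 3) (by norm_num) |>.mp e12
  rcases mul_eq_zero.mp hab with ha | hb
  · left
    have hc : c ^ 3 = -1 := by rw [ha] at e1; linear_combination e1
    have hc0 : c ≠ 0 := by
      rintro rfl
      norm_num at hc
    have hd : d = 0 := (mul_eq_zero.mp hcd).resolve_left hc0
    refine ⟨ha, hd, ?_, hc⟩
    rw [hd] at e2
    linear_combination e2
  · right
    have hd : d ^ 3 = -1 := by rw [hb] at e2; linear_combination e2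
    have hd0 : d ≠ 0 := by
      rintro rfl
      norm_num at hd
    have hc : c = 0 := (mul_eq_zero.mp hcd).resolve_right hd0
    refine ⟨hb, hc, ?_, hd⟩
    rw [hc] at e1
    linear_combination e1

/-- ROW S2a: four linear forms on a plane whose cubes sum to zero. -/
theorem row_S2a {W : Type*} [AddCommGroup W] [Module ℂ W] [FiniteDimensional ℂ W]
    (hW : finrank ℂ W = 2) (y : Fin 4 → W →ₗ[ℂ] ℂ) (hinj : ∀ x, (∀ i, y i x = 0) → x = 0)
    (h : ∀ x, ∑ i, y i x ^ 3 = 0) :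
    ∃ σ : Equiv.Perm (Fin 4), (∀ x, y (σ 0) x ^ 3 + y (σ 1) x ^ 3 = 0) ∧
      ∀ x, y (σ 2) x ^ 3 + y (σ 3) x ^ 3 = 0 := by
  classical
  have hnt : Nontrivial W := Module.nontrivial_of_finrank_pos (R := ℂ) (by omega)
  obtain ⟨x, hx⟩ := exists_ne (0 : W)
  obtain ⟨i, hi⟩ : ∃ i, y i x ≠ 0 := by
    by_contra hcon
    push Not at hcon
    exact hx (hinj x hcon)
  have hker : finrank ℂ (LinearMap.ker (y i)) = 1 := by
    have h1 := LinearMap.finrank_range_add_finrank_ker (y i)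
    have h2 : LinearMap.range (y i) = ⊤ := by
      rw [LinearMap.range_eq_top]
      apply LinearMap.surjective
      intro h3
      apply hi
      rw [h3]
      rfl
    rw [h2, finrank_top, finrank_self, hW] at h1
    omega
  obtain ⟨⟨v, hvk⟩, hv0, hv⟩ := finrank_eq_one_iff'.mp hker
  have hvi : y i v = 0 := LinearMap.mem_ker.mp hvk
  obtain ⟨j, hj⟩ : ∃ j, y j v ≠ 0 := by
    by_contra hcon
    push Not at hcon
    exact hv0 (Subtype.ext (hinj v hcon))
  have hij : i ≠ j := by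
    rintro rfl
    exact hj hvi
  set u : W := x - (y j x / y j v) • v with hu
  have hui : y i u = y i x := by
    rw [hu, map_sub, map_smul, hvi, smul_zero, sub_zero]
  have huj : y j u = 0 := by
    rw [hu, map_sub, map_smul, smul_eq_mul, div_mul_cancel₀ _ hj, sub_self]
  have hexp : ∀ z : W, z = (y i z / y i x) • u + (y j z / y j v) • v := by
    intro z
    have h1 : y i (z - (y i z / y i x) • u) = 0 := by
      rw [map_sub, map_smul, hui, smul_eq_mul, div_mul_cancel₀ _ hi, sub_self]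
    obtain ⟨c, hc⟩ := hv ⟨z - (y i z / y i x) • u, LinearMap.mem_ker.mpr h1⟩
    have h2 : c • v = z - (y i z / y i x) • u := congrArg Subtype.val hc
    have h3 : c = y j z / y j v := by
      have h4 := congrArg (y j) h2
      rw [map_smul, map_sub, map_smul, huj, smul_zero, sub_zero, smul_eq_mul] at h4
      rw [← h4, mul_div_cancel_right₀ _ hj]
    rw [← h3, h2]
    abel
  have hperm : ∀ i j : Fin 4, i ≠ j → ∃ τ : Equiv.Perm (Fin 4), τ 0 = i ∧ τ 1 = j := by decide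
  obtain ⟨τ, hτ0, hτ1⟩ := hperm i j hij
  have hsum : ∀ z, y i z ^ 3 + y j z ^ 3 + y (τ 2) z ^ 3 + y (τ 3) z ^ 3 = 0 := by
    intro z
    have h1 : ∑ k, y (τ k) z ^ 3 = 0 := by
      rw [Equiv.sum_comp τ (fun k => y k z ^ 3)]
      exact h z
    rw [Fin.sum_univ_four, hτ0, hτ1] at h1
    exact h1
  have hk : ∀ (k : Fin 4) (z : W), y k z =
      (y k u / y i x) * y i z + (y k v / y j v) * y j z := by
    intro k z
    conv_lhs => rw [hexp z]
    rw [map_add, map_smul, map_smul, smul_eq_mul, smul_eq_mul]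
    ring
  have hz : ∀ s t : ℂ, ∃ z, y i z = s ∧ y j z = t := by
    intro s t
    refine ⟨(s / y i x) • u + (t / y j v) • v, ?_, ?_⟩
    · rw [map_add, map_smul, map_smul, hui, hvi, smul_zero, add_zero, smul_eq_mul,
        div_mul_cancel₀ _ hi]
    · rw [map_add, map_smul, map_smul, huj, smul_zero, zero_add, smul_eq_mul,
        div_mul_cancel₀ _ hj]
  have hmain := four_alg (a := y (τ 2) u / y i x) (b := y (τ 2) v / y j v)
    (c := y (τ 3) u / y i x) (d := y (τ 3) v / y j v) (by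
      intro s t
      obtain ⟨z, rfl, rfl⟩ := hz s t
      have h1 := hsum z
      rw [hk (τ 2) z, hk (τ 3) z] at h1
      exact h1)
  rcases hmain with ⟨ha, hd, hb, hc⟩ | ⟨hb, hc, ha, hd⟩
  · have hρ : ∃ ρ : Equiv.Perm (Fin 4), ρ 0 = 0 ∧ ρ 1 = 3 ∧ ρ 2 = 1 ∧ ρ 3 = 2 := by decide
    obtain ⟨ρ, h0, h1, h2, h3⟩ := hρ
    refine ⟨ρ.trans τ, fun z => ?_, fun z => ?_⟩
    · rw [Equiv.trans_apply, Equiv.trans_apply, h0, h1, hτ0, hk (τ 3) z, hd, zero_mul, add_zero,
        mul_pow, hc]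
      ring
    · rw [Equiv.trans_apply, Equiv.trans_apply, h2, h3, hτ1, hk (τ 2) z, ha, zero_mul, zero_add,
        mul_pow, hb]
      ring
  · have hρ : ∃ ρ : Equiv.Perm (Fin 4), ρ 0 = 0 ∧ ρ 1 = 2 ∧ ρ 2 = 1 ∧ ρ 3 = 3 := by decide
    obtain ⟨ρ, h0, h1, h2, h3⟩ := hρ
    refine ⟨ρ.trans τ, fun z => ?_, fun z => ?_⟩
    · rw [Equiv.trans_apply, Equiv.trans_apply, h0, h1, hτ0, hk (τ 2) z, hb, zero_mul, add_zero,
        mul_pow, ha]
      ring
    · rw [Equiv.trans_apply, Equiv.trans_apply, h2, h3, hτ1, hk (τ 3) z, hc, zero_mul, zero_add,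
        mul_pow, hd]
      ring

end Vale.Agent.P287.R2.H414
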