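import Vale.Agent.P287.R2.H414.Sums
import Vale.Agent.P287.R2.H248.TwoPoints

/-!
P287: a smooth cubic form in six variables which is the sum of two forms in disjoint sets of at
least two variables contains two disjoint planes.
-/

namespace Vale.Agent.P287.R2.H414

open Module Submodule Vale.Agent.P287.R2.H248 Vale.Agent.P287.R2.H248.Tri

variable {V : Type*} [AddCommGroup V] [Module ℂ V] {S : Tri V}

lemma cubic_zero (a b c d : ℂ) : ∃ x y : ℂ, (x ≠ 0 ∨ y ≠ 0) ∧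
    x ^ 3 * a + 3 * x ^ 2 * y * b + 3 * x * y ^ 2 * c + y ^ 3 * d = 0 := by
  by_cases ha : a = 0
  · exact ⟨1, 0, Or.inl one_ne_zero, by rw [ha]; ring⟩
  · have hdeg : (Polynomial.C a * Polynomial.X ^ 3 + Polynomial.C (3 * b) * Polynomial.X ^ 2 +
        Polynomial.C (3 * c) * Polynomial.X + Polynomial.C d).degree ≠ 0 := by
      rw [Polynomial.degree_cubic ha]
      norm_num
    obtain ⟨x, hx⟩ := IsAlgClosed.exists_root _ hdeg
    refine ⟨x, 1, Or.inr one_ne_zero, ?_⟩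
    simp only [Polynomial.IsRoot, Polynomial.eval_add, Polynomial.eval_mul, Polynomial.eval_C,
      Polynomial.eval_pow, Polynomial.eval_X] at hx
    linear_combination hx

/-- A zero of the binary form is an Eckardt point. -/
lemma eckardt_of_zero [FiniteDimensional ℂ V] (hS : S.Smooth) {A B : Submodule ℂ V}
    (hAB : A ⊔ B = ⊤) (hA : finrank ℂ A = 2)
    (h1 : ∀ a ∈ A, ∀ a2 ∈ A, ∀ b ∈ B, S.T a a2 b = 0)
    (h2 : ∀ a ∈ A, ∀ b ∈ B, ∀ b2 ∈ B, S.T a b b2 = 0) {p : V} (hpA : p ∈ A) (hp : p ≠ 0)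
    (hpp : S.T p p p = 0) : S.Eckardt p := by
  have key : ∀ a ∈ A, S.T p p a = 0 → ∃ c : ℂ, c • p = a := by
    intro a ha hpa
    by_contra hcon
    have hns : a ∉ span ℂ {p} := fun h => hcon (mem_span_singleton.mp h)
    have h3 := finrank_sup_single hns
    rw [finrank_span_singleton hp] at h3
    have h4 : span ℂ {p} ⊔ span ℂ {a} = A := by
      apply Submodule.eq_of_le_of_finrank_eq
      · refine sup_le ?_ ?_ <;> rw [span_le, Set.singleton_subset_iff]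
        · exact hpA
        · exact ha
      · rw [h3, hA]
    apply hp
    apply hS
    intro w
    have hw : w ∈ A ⊔ B := by rw [hAB]; trivial
    obtain ⟨x, hx, y, hy, rfl⟩ := mem_sup.mp hw
    rw [← h4] at hx
    obtain ⟨x1, hx1, x2, hx2, rfl⟩ := mem_sup.mp hx
    obtain ⟨s, rfl⟩ := mem_span_singleton.mp hx1
    obtain ⟨t, rfl⟩ := mem_span_singleton.mp hx2
    rw [map_add, map_add, map_smul, map_smul, h1 p hpA p hpA y hy, hpp, hpa]
    simp
  refine ⟨hp, hpp, ?_⟩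
  intro h k hh hk
  have hw : h ∈ A ⊔ B := by rw [hAB]; trivial
  have hw' : k ∈ A ⊔ B := by rw [hAB]; trivial
  obtain ⟨a, ha, b, hb, rfl⟩ := mem_sup.mp hw
  obtain ⟨a', ha', b', hb', rfl⟩ := mem_sup.mp hw'
  rw [map_add, h1 p hpA p hpA b hb, add_zero] at hh
  rw [map_add, h1 p hpA p hpA b' hb', add_zero] at hk
  obtain ⟨c, rfl⟩ := key a ha hh
  obtain ⟨c', rfl⟩ := key a' ha' hk
  simp only [map_add, map_smul, LinearMap.add_apply, LinearMap.smul_apply, smul_eq_mul]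
  rw [hpp, h1 p hpA p hpA b' hb', S.s23 p b p, h1 p hpA p hpA b hb, h2 p hpA b hb b' hb']
  ring

lemma sums_two [FiniteDimensional ℂ V] (hS : S.Smooth) (hV : finrank ℂ V = 6)
    {A B : Submodule ℂ V} (hAB : A ⊔ B = ⊤) (hA : finrank ℂ A = 2)
    (h1 : ∀ a ∈ A, ∀ a2 ∈ A, ∀ b ∈ B, S.T a a2 b = 0)
    (h2 : ∀ a ∈ A, ∀ b ∈ B, ∀ b2 ∈ B, S.T a b b2 = 0) :
    ∃ P Q : Submodule ℂ V, finrank ℂ P = 3 ∧ finrank ℂ Q = 3 ∧ S.Iso P ∧ S.Iso Q ∧
      Disjoint P Q := by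
  obtain ⟨u, hu, hu0⟩ : ∃ u ∈ A, u ≠ 0 := by
    have : A ≠ ⊥ := by
      rintro rfl
      rw [finrank_bot] at hA
      omega
    exact A.ne_bot_iff.mp this
  obtain ⟨e, he, heu, -⟩ := exists_pair hA hu hu0
  obtain ⟨x, y, hxy, hz⟩ := cubic_zero (S.T u u u) (S.T u u e) (S.T u e e) (S.T e e e)
  set p := x • u + y • e with hp
  have hpA : p ∈ A := A.add_mem (A.smul_mem x hu) (A.smul_mem y he)
  have hp0 : p ≠ 0 := by
    intro h
    obtain ⟨a1, a2⟩ := pair_eq_zero hu0 heu h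
    rcases hxy with h | h
    · exact h a1
    · exact h a2
  have hpp : S.T p p p = 0 := by
    rw [hp, S.cube_add]
    exact hz
  obtain ⟨g, hg, hgp, hpg⟩ := exists_pair hA hpA hp0
  have hpE : S.Eckardt p := eckardt_of_zero hS hAB hA h1 h2 hpA hp0 hpp
  have hppg : S.T p p g ≠ 0 := by
    intro h
    apply hp0
    apply hS
    intro w
    have hw : w ∈ A ⊔ B := by rw [hAB]; trivial
    obtain ⟨x, hx, y, hy, rfl⟩ := mem_sup.mp hw
    rw [← hpg] at hx
    obtain ⟨s, t, rfl⟩ := mem_span_pair.mp hx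
    rw [map_add, map_add, map_smul, map_smul, h1 p hpA p hpA y hy, hpp, h]
    simp
  -- a second zero
  obtain ⟨z, hz⟩ : ∃ z : ℂ, z ^ 2 * (3 * S.T p p g) + 3 * z * S.T p g g + S.T g g g = 0 := by
    obtain ⟨r, hr⟩ := IsAlgClosed.exists_pow_nat_eq
      ((3 * S.T p g g) ^ 2 - 4 * (3 * S.T p p g) * S.T g g g) (n := 2) (by norm_num)
    refine ⟨(-(3 * S.T p g g) + r) / (2 * (3 * S.T p p g)), ?_⟩
    field_simp
    linear_combination hr
  set q := z • p + (1 : ℂ) • g with hq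
  have hqA : q ∈ A := A.add_mem (A.smul_mem z hpA) (A.smul_mem 1 hg)
  have hqp : q ∉ span ℂ {p} := by
    intro h
    apply hgp
    have h3 : g = q - z • p := by
      rw [hq, one_smul]
      abel
    rw [h3]
    exact sub_mem h (smul_mem _ _ (mem_span_singleton_self p))
  have hq0 : q ≠ 0 := fun h => hqp (by rw [h]; exact zero_mem _)
  have hqq : S.T q q q = 0 := by
    rw [hq, S.cube_add, hpp]
    linear_combination hz
  have hqE : S.Eckardt q := eckardt_of_zero hS hAB hA h1 h2 hqA hq0 hqq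
  obtain ⟨P, hP, hPI, -⟩ := Vale.Agent.P287.R2.H946.plane_of_eckardt exists_line_four hS hV hpE
  obtain ⟨P', Q', i1, i2, i3, i4, i5⟩ := two_eckardt_plane hS hV hpE hqE hqp hP hPI
  exact ⟨P', Q', i1, i3, i2, i4, i5⟩

theorem sums_all [FiniteDimensional ℂ V] (hS : S.Smooth) (hV : finrank ℂ V = 6)
    {A B : Submodule ℂ V} (hAB : IsCompl A B) (hA : 2 ≤ finrank ℂ A) (hB : 2 ≤ finrank ℂ B)
    (h1 : ∀ a ∈ A, ∀ a2 ∈ A, ∀ b ∈ B, S.T a a2 b = 0)
    (h2 : ∀ a ∈ A, ∀ b ∈ B, ∀ b2 ∈ B, S.T a b b2 = 0) :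
    ∃ P Q : Submodule ℂ V, finrank ℂ P = 3 ∧ finrank ℂ Q = 3 ∧ S.Iso P ∧ S.Iso Q ∧
      Disjoint P Q := by
  have hdim := Submodule.finrank_add_eq_of_isCompl hAB
  rw [hV] at hdim
  have h3 : finrank ℂ A = 2 ∨ finrank ℂ A = 3 ∨ finrank ℂ B = 2 := by omega
  rcases h3 with h3 | h3 | h3
  · exact sums_two hS hV hAB.sup_eq_top h3 h1 h2
  · exact sums_disjoint hS hAB h3 (by omega) h1 h2
  · refine sums_two hS hV hAB.symm.sup_eq_top h3 ?_ ?_
    · intro b hb b2 hb2 a ha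
      rw [← S.cyc a b b2]
      exact h2 a ha b hb b2 hb2
    · intro b hb a ha a2 ha2
      rw [S.cyc]
      exact h1 a ha a2 ha2 b hb

lemma polar_sums (S : Tri V) {A B : Submodule ℂ V}
    (hsum : ∀ a ∈ A, ∀ b ∈ B, S.T (a + b) (a + b) (a + b) = S.T a a a + S.T b b b) :
    (∀ a ∈ A, ∀ a2 ∈ A, ∀ b ∈ B, S.T a a2 b = 0) ∧
      ∀ a ∈ A, ∀ b ∈ B, ∀ b2 ∈ B, S.T a b b2 = 0 := by
  have e : ∀ a ∈ A, ∀ b ∈ B, S.T a a b = 0 ∧ S.T a b b = 0 := by
    intro a ha b hb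
    have e1 := hsum a ha b hb
    have e2 := hsum a ha (-b) (B.neg_mem hb)
    have c1 := S.cube_add 1 1 a b
    have c2 := S.cube_add 1 (-1) a b
    rw [one_smul, one_smul] at c1
    rw [one_smul, neg_one_smul] at c2
    rw [c1] at e1
    rw [c2] at e2
    have e3 : S.T (-b) (-b) (-b) = -S.T b b b := by
      simp
    rw [e3] at e2
    constructor
    · linear_combination (1 / 6 : ℂ) * (e1 - e2)
    · linear_combination (1 / 6 : ℂ) * (e1 + e2)
  have e' : ∀ a ∈ A, ∀ b ∈ B, S.T b b a = 0 := by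
    intro a ha b hb
    rw [← S.cyc a b b]
    exact (e a ha b hb).2
  constructor
  · intro a ha a2 ha2 b hb
    have c := S.sq_add 1 1 a a2 b
    rw [one_smul, one_smul, (e _ (A.add_mem ha ha2) b hb).1, (e a ha b hb).1,
      (e a2 ha2 b hb).1] at c
    linear_combination (-1 / 2 : ℂ) * c
  · intro a ha b hb b2 hb2
    have c := S.sq_add 1 1 b b2 a
    rw [one_smul, one_smul, e' a ha _ (B.add_mem hb hb2), e' a ha b hb, e' a ha b2 hb2] at c
    rw [S.cyc]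
    linear_combination (-1 / 2 : ℂ) * c

/-- **A cubic fourfold whose equation is the sum of two forms in disjoint sets of at least two
variables contains two disjoint planes.** -/
theorem sum_forms {F : MvPolynomial (Fin 6) ℂ} (hF : IsCubicFourfold F) {A B : Submodule ℂ A6}
    (hAB : IsCompl A B) (hA : 2 ≤ finrank ℂ A) (hB : 2 ≤ finrank ℂ B)
    (hsum : ∀ a ∈ A, ∀ b ∈ B,
      MvPolynomial.eval (a + b) F = MvPolynomial.eval a F + MvPolynomial.eval b F) :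
    ∃ P Q, IsPlaneIn F P ∧ IsPlaneIn F Q ∧ Disjoint P Q := by
  have hV : finrank ℂ A6 = 6 := by simp
  obtain ⟨h1, h2⟩ := polar_sums (pol F) (A := A) (B := B) fun a ha b hb => by
    rw [pol_three hF.1, pol_three hF.1, pol_three hF.1]
    exact hsum a ha b hb
  obtain ⟨P, Q, hP, hQ, hPI, hQI, hd⟩ := sums_all (pol_smooth hF) hV hAB hA hB h1 h2
  exact ⟨P, Q, ⟨hP, (pol_iso hF.1).mp hPI⟩, ⟨hQ, (pol_iso hF.1).mp hQI⟩, hd⟩

end Vale.Agent.P287.R2.H414
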