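import Vale.Agent.P287.R2.H248.Line
import Vale.Agent.P287.R2.H946.Transfer

/-!
P287: a smooth cubic form which is the sum of two forms in disjoint sets of three variables
contains two disjoint planes. (Proof of helper114: flex lines of the two plane cubics.)
-/

namespace Vale.Agent.P287.R2.H414

open Module Submodule Vale.Agent.P287.R2.H248 Vale.Agent.P287.R2.H248.Tri

variable {V : Type*} [AddCommGroup V] [Module ℂ V] {S : Tri V}

/-- The form of `F(v) + t³`. -/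
def cyc (S : Tri V) : Tri (V × ℂ) :=
  (S.comap (LinearMap.fst ℂ V ℂ)).pert (LinearMap.snd ℂ V ℂ) (-1)

lemma cyc_T (u v w : V × ℂ) :
    (cyc S).T u v w = S.T u.1 v.1 w.1 + u.2 * (v.2 * w.2) := by
  rw [cyc, pert_T, comap_T]
  simp

lemma cyc_smooth (hS : S.Smooth) : (cyc S).Smooth := by
  intro v hv
  have h1 : v.1 = 0 := by
    apply hS
    intro w
    have := hv (w, 0)
    rw [cyc_T] at this
    simpa using this
  have h2 : v.2 = 0 := by
    have := hv (0, 1)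
    rw [cyc_T] at this
    simpa using this
  exact Prod.ext h1 h2

/-- A line of the cyclic cubic surface gives a flex line of the plane cubic. -/
lemma flex_line [FiniteDimensional ℂ V] {U : Submodule ℂ (V × ℂ)} (hU : finrank ℂ U = 2)
    (hI : (cyc S).Iso U) : ∃ (U1 : Submodule ℂ V) (l : V →ₗ[ℂ] ℂ), finrank ℂ U1 = 2 ∧
      (∀ u ∈ U1, S.T u u u = l u ^ 3) ∧ ∀ u ∈ U1, (u, -l u) ∈ U := by
  set g : U →ₗ[ℂ] V := (LinearMap.fst ℂ V ℂ) ∘ₗ U.subtype with hg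
  have hinj : Function.Injective g := by
    rw [← LinearMap.ker_eq_bot, LinearMap.ker_eq_bot']
    rintro ⟨⟨v, t⟩, hu⟩ h
    have hv : v = 0 := h
    subst hv
    have h1 := hI _ hu
    rw [cyc_T] at h1
    have h2 : t = 0 := by simpa using h1
    subst h2
    rfl
  set E := LinearEquiv.ofInjective g hinj
  set τ : LinearMap.range g →ₗ[ℂ] ℂ := -((LinearMap.snd ℂ V ℂ) ∘ₗ U.subtype ∘ₗ E.symm.toLinearMap)
  obtain ⟨l, hl⟩ := LinearMap.exists_extend τ
  have key : ∀ u ∈ LinearMap.range g, (u, -l u) ∈ U := by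
    rintro u ⟨x, rfl⟩
    have h1 : l (g x) = τ ⟨g x, ⟨x, rfl⟩⟩ := by
      rw [← hl]
      rfl
    have h2 : E.symm ⟨g x, ⟨x, rfl⟩⟩ = x := by
      rw [LinearEquiv.symm_apply_eq]
      rfl
    have h3 : l (g x) = -(x : V × ℂ).2 := by
      rw [h1]
      show -((E.symm ⟨g x, ⟨x, rfl⟩⟩ : U) : V × ℂ).2 = _
      rw [h2]
    rw [h3, neg_neg]
    exact x.2
  refine ⟨LinearMap.range g, l, ?_, ?_, key⟩
  · rw [LinearMap.finrank_range_of_inj hinj, hU]
  · intro u hu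
    have h1 := hI _ (key u hu)
    rw [cyc_T] at h1
    simp only at h1
    linear_combination h1

lemma two_of_cube {U : Submodule ℂ V} {l : V →ₗ[ℂ] ℂ} (h : ∀ u ∈ U, S.T u u u = l u ^ 3)
    {u v : V} (hu : u ∈ U) (hv : v ∈ U) : S.T u u v = l u * (l u * l v) := by
  have hI : (S.pert l 1).Iso U := by
    intro x hx
    rw [pert_T, h x hx]
    ring
  have h1 := hI.two hu hv
  rw [pert_T] at h1
  linear_combination h1

/-- Two flex lines of a smooth plane cubic. -/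
theorem flex [FiniteDimensional ℂ V] (hV : finrank ℂ V = 3) (hS : S.Smooth) :
    ∃ (U1 U2 : Submodule ℂ V) (l1 l2 : V →ₗ[ℂ] ℂ) (p : V), finrank ℂ U1 = 2 ∧ finrank ℂ U2 = 2 ∧
      (∀ u ∈ U1, S.T u u u = l1 u ^ 3) ∧ (∀ u ∈ U2, S.T u u u = l2 u ^ 3) ∧ p ∈ U1 ∧ p ∈ U2 ∧
      l1 p ≠ 0 ∧ l2 p ≠ 0 ∧ ∀ u ∈ U1, u ∈ U2 → ∃ s : ℂ, u = s • p := by
  have h4 : finrank ℂ (V × ℂ) = 4 := by
    rw [finrank_prod, hV, finrank_self]
  obtain ⟨U, hU, hUI⟩ := Vale.Agent.P287.R2.H946.line_any exists_line_four h4 (cyc_smooth hS)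
  obtain ⟨L, hL, hLI, hd⟩ := exists_disjoint (cyc_smooth hS) h4 hU hUI
  obtain ⟨U1, l1, hU1, hF1, hk1⟩ := flex_line hU hUI
  obtain ⟨U2, l2, hU2, hF2, hk2⟩ := flex_line hL hLI
  have hne : U1 ≠ U2 := by
    rintro rfl
    -- a nonzero vector of `U1` killed by `l1`
    obtain ⟨u, hu, hu0, hlu⟩ : ∃ u ∈ U1, u ≠ 0 ∧ l1 u = 0 := by
      have h1 : LinearMap.ker (l1 ∘ₗ U1.subtype) ≠ ⊥ := by
        intro hbot
        have h2 := LinearMap.finrank_range_add_finrank_ker (l1 ∘ₗ U1.subtype)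
        rw [hbot, finrank_bot, hU1] at h2
        have h3 := (LinearMap.range (l1 ∘ₗ U1.subtype)).finrank_le
        rw [finrank_self] at h3
        omega
      obtain ⟨u, hu, hu0⟩ := (Submodule.ne_bot_iff _).mp h1
      exact ⟨u, u.2, fun h => hu0 (Subtype.ext h), hu⟩
    have hl2 : l2 u = 0 := by
      have h1 := hF1 u hu
      rw [hF2 u hu, hlu] at h1
      exact pow_eq_zero_iff (three_ne_zero) |>.mp (by rw [h1]; ring)
    have h1 := hk1 u hu
    have h2 := hk2 u hu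
    rw [hlu, neg_zero] at h1
    rw [hl2, neg_zero] at h2
    have h3 := (Submodule.disjoint_def.mp hd) _ h1 h2
    exact hu0 (congrArg Prod.fst h3)
  have hsup : finrank ℂ ↥(U1 ⊔ U2) = 3 := by
    have h1 := Submodule.finrank_le (U1 ⊔ U2)
    rw [hV] at h1
    have h2 := Submodule.finrank_mono (le_sup_left : U1 ≤ U1 ⊔ U2)
    rw [hU1] at h2
    have h3 : finrank ℂ ↥(U1 ⊔ U2) ≠ 2 := by
      intro h3
      have e1 : U1 = U1 ⊔ U2 := Submodule.eq_of_le_of_finrank_eq le_sup_left (by rw [hU1, h3])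
      have e2 : U2 = U1 ⊔ U2 := Submodule.eq_of_le_of_finrank_eq le_sup_right (by rw [hU2, h3])
      exact hne (e1.trans e2.symm)
    omega
  have hinf : finrank ℂ ↥(U1 ⊓ U2) = 1 := by
    have h1 := Submodule.finrank_sup_add_finrank_inf_eq U1 U2
    rw [hsup, hU1, hU2] at h1
    omega
  have htop : U1 ⊔ U2 = ⊤ := Submodule.eq_top_of_finrank_eq (by rw [hsup, hV])
  obtain ⟨p, hp0, hp⟩ := finrank_eq_one_iff'.mp hinf
  have hpne : (p : V) ≠ 0 := fun h => hp0 (Subtype.ext h)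
  have hFp : S.T (p : V) p p ≠ 0 := by
    intro h0
    have e1 : l1 (p : V) = 0 := by
      rw [hF1 _ p.2.1] at h0
      exact (pow_eq_zero_iff (three_ne_zero)).mp h0
    have e2 : l2 (p : V) = 0 := by
      rw [hF2 _ p.2.2] at h0
      exact (pow_eq_zero_iff (three_ne_zero)).mp h0
    apply hpne
    apply hS
    intro w
    have hw : w ∈ U1 ⊔ U2 := by rw [htop]; trivial
    obtain ⟨x, hx, y, hy, rfl⟩ := mem_sup.mp hw
    rw [map_add, two_of_cube hF1 p.2.1 hx, two_of_cube hF2 p.2.2 hy, e1, e2]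
    ring
  refine ⟨U1, U2, l1, l2, p, hU1, hU2, hF1, hF2, p.2.1, p.2.2, ?_, ?_, ?_⟩
  · intro h
    rw [hF1 _ p.2.1, h] at hFp
    exact hFp (by ring)
  · intro h
    rw [hF2 _ p.2.2, h] at hFp
    exact hFp (by ring)
  · intro u h1 h2
    obtain ⟨s, hs⟩ := hp ⟨u, h1, h2⟩
    exact ⟨s, (congrArg Subtype.val hs).symm⟩

lemma exists_omega : ∃ z : ℂ, z ^ 3 = 1 ∧ z ≠ 1 := by
  obtain ⟨z, hz⟩ := IsAlgClosed.exists_pow_nat_eq (-3 : ℂ) (n := 2) (by norm_num)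
  refine ⟨(-1 + z) / 2, ?_, ?_⟩
  · linear_combination ((z - 3) / 8) * hz
  · intro h
    have h1 : z = 3 := by linear_combination 2 * h
    rw [h1] at hz
    norm_num at hz

/-- The plane over two flex lines. -/
lemma exists_plane [FiniteDimensional ℂ V] {A B : Submodule ℂ V} (hAB : IsCompl A B)
    (h1 : ∀ a ∈ A, ∀ a2 ∈ A, ∀ b ∈ B, S.T a a2 b = 0)
    (h2 : ∀ a ∈ A, ∀ b ∈ B, ∀ b2 ∈ B, S.T a b b2 = 0)
    {U : Submodule ℂ A} {W : Submodule ℂ B} (hU : finrank ℂ U = 2) (hW : finrank ℂ W = 2)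
    {l : A →ₗ[ℂ] ℂ} {m : B →ₗ[ℂ] ℂ}
    (hl : ∀ u ∈ U, S.T (u : V) u u = l u ^ 3) (hm : ∀ w ∈ W, S.T (w : V) w w = m w ^ 3)
    {z : ℂ} (hz : z ^ 3 = 1) {p : A} (hp : p ∈ U) (hlp : l p ≠ 0) :
    ∃ P : Submodule ℂ V, finrank ℂ P = 3 ∧ S.Iso P ∧
      ∀ x ∈ P, ∃ u ∈ U, ∃ w ∈ W, x = (u : V) + w ∧ l u + z * m w = 0 := by
  set g : (U × W) →ₗ[ℂ] V := (A.subtype ∘ₗ U.subtype).coprod (B.subtype ∘ₗ W.subtype) with hg
  have hgx : ∀ x : U × W, g x = ((x.1 : A) : V) + ((x.2 : B) : V) := fun x => by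
    rw [hg, LinearMap.coprod_apply]
    rfl
  have hginj : Function.Injective g := by
    rw [← LinearMap.ker_eq_bot, LinearMap.ker_eq_bot']
    intro x hx
    rw [hgx] at hx
    have e1 : ((x.1 : A) : V) = -((x.2 : B) : V) := eq_neg_of_add_eq_zero_left hx
    have e2 : ((x.1 : A) : V) ∈ B := by
      rw [e1]
      exact B.neg_mem (x.2 : B).2
    have e3 : ((x.1 : A) : V) = 0 := (Submodule.disjoint_def.mp hAB.disjoint) _ (x.1 : A).2 e2
    have e4 : ((x.2 : B) : V) = 0 := by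
      rw [e3] at e1
      exact (neg_eq_zero.mp e1.symm)
    exact Prod.ext (Subtype.ext (Subtype.ext e3)) (Subtype.ext (Subtype.ext e4))
  set f : (U × W) →ₗ[ℂ] ℂ := (l ∘ₗ U.subtype).coprod (z • (m ∘ₗ W.subtype)) with hf
  have hfx : ∀ x : U × W, f x = l x.1 + z * m x.2 := fun x => by
    rw [hf, LinearMap.coprod_apply]
    rfl
  have hf0 : f ≠ 0 := by
    intro h
    have := LinearMap.congr_fun h (⟨p, hp⟩, 0)
    rw [hfx] at this
    simp at this
    exact hlp this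
  have h4 : finrank ℂ (U × W) = 4 := by
    rw [finrank_prod, hU, hW]
  have hker : finrank ℂ ↥(LinearMap.ker f) + 1 = finrank ℂ (U × W) :=
    Module.Dual.finrank_ker_add_one_of_ne_zero (f := f) hf0
  refine ⟨(LinearMap.ker f).map g, ?_, ?_, ?_⟩
  · rw [← LinearEquiv.finrank_eq (Submodule.equivMapOfInjective g hginj (LinearMap.ker f))]
    omega
  · rintro x hx
    obtain ⟨y, hy, rfl⟩ := Submodule.mem_map.mp hx
    have hy0 : l y.1 + z * m y.2 = 0 := by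
      rw [← hfx]
      exact hy
    rw [hgx]
    have e := S.cube_add 1 1 (((y.1 : A) : V)) (((y.2 : B) : V))
    rw [one_smul, one_smul, hl _ y.1.2, hm _ y.2.2, h1 _ (y.1 : A).2 _ (y.1 : A).2 _ (y.2 : B).2,
      h2 _ (y.1 : A).2 _ (y.2 : B).2 _ (y.2 : B).2] at e
    rw [e]
    have e1 : l y.1 = -(z * m y.2) := eq_neg_of_add_eq_zero_left hy0
    rw [e1]
    linear_combination (-(m (y.2 : B)) ^ 3) * hz
  · rintro x hx
    obtain ⟨y, hy, rfl⟩ := Submodule.mem_map.mp hx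
    refine ⟨y.1, y.1.2, y.2, y.2.2, hgx y, ?_⟩
    rw [← hfx]
    exact hy

/-- **A smooth cubic form which is the sum of two forms in disjoint sets of three variables
contains two disjoint planes.** -/
theorem sums_disjoint [FiniteDimensional ℂ V] (hS : S.Smooth) {A B : Submodule ℂ V}
    (hAB : IsCompl A B) (hA : finrank ℂ A = 3) (hB : finrank ℂ B = 3)
    (h1 : ∀ a ∈ A, ∀ a2 ∈ A, ∀ b ∈ B, S.T a a2 b = 0)
    (h2 : ∀ a ∈ A, ∀ b ∈ B, ∀ b2 ∈ B, S.T a b b2 = 0) :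
    ∃ P Q : Submodule ℂ V, finrank ℂ P = 3 ∧ finrank ℂ Q = 3 ∧ S.Iso P ∧ S.Iso Q ∧
      Disjoint P Q := by
  have hAB' : A ⊔ B = ⊤ := hAB.sup_eq_top
  have hSA : (S.comap A.subtype).Smooth := by
    rintro ⟨a, ha⟩ h
    apply Subtype.ext
    apply hS
    intro w
    have hw : w ∈ A ⊔ B := by rw [hAB']; trivial
    obtain ⟨x, hx, y, hy, rfl⟩ := mem_sup.mp hw
    rw [map_add, h1 a ha a ha y hy, add_zero]
    exact h ⟨x, hx⟩
  have hSB : (S.comap B.subtype).Smooth := by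
    rintro ⟨b, hb⟩ h
    apply Subtype.ext
    apply hS
    intro w
    have hw : w ∈ A ⊔ B := by rw [hAB']; trivial
    obtain ⟨x, hx, y, hy, rfl⟩ := mem_sup.mp hw
    rw [map_add, ← S.cyc x b b, h2 x hx b hb b hb, zero_add]
    exact h ⟨y, hy⟩
  obtain ⟨U1, U2, l1, l2, p, hU1, hU2, hF1, hF2, hp1, hp2, hl1, hl2, hp⟩ := flex hA hSA
  obtain ⟨W1, W2, m1, m2, q, hW1, hW2, hG1, hG2, hq1, hq2, hm1, hm2, hq⟩ := flex hB hSB
  obtain ⟨z, hz, hD⟩ : ∃ z : ℂ, z ^ 3 = 1 ∧ l1 p * (z * m2 q) - m1 q * l2 p ≠ 0 := by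
    obtain ⟨z, hz, hz1⟩ := exists_omega
    by_cases h : l1 p * (1 * m2 q) - m1 q * l2 p = 0
    · refine ⟨z, hz, fun h' => ?_⟩
      have h3 : (z - 1) * (l1 p * m2 q) = 0 := by linear_combination h' - h
      rcases mul_eq_zero.mp h3 with h4 | h4
      · exact hz1 (sub_eq_zero.mp h4)
      · exact mul_ne_zero hl1 hm2 h4
    · exact ⟨1, one_pow 3, h⟩
  obtain ⟨P, hP3, hPI, hP⟩ := exists_plane hAB h1 h2 hU1 hW1 hF1 hG1 (one_pow 3) hp1 hl1
  obtain ⟨Q, hQ3, hQI, hQ⟩ := exists_plane hAB h1 h2 hU2 hW2 hF2 hG2 hz hp2 hl2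
  refine ⟨P, Q, hP3, hQ3, hPI, hQI, ?_⟩
  rw [Submodule.disjoint_def]
  intro x hxP hxQ
  obtain ⟨u, hu, w, hw, hx1, e1⟩ := hP x hxP
  obtain ⟨u', hu', w', hw', hx2, e2⟩ := hQ x hxQ
  have hd : ((u : V) - u') = (w' : V) - w := by
    have : (u : V) + w = u' + w' := hx1.symm.trans hx2
    rw [sub_eq_sub_iff_add_eq_add, this, add_comm]
  have hd1 : ((u : V) - u') ∈ B := by
    rw [hd]
    exact B.sub_mem w'.2 w.2
  have hd2 : (u : V) - u' = 0 :=
    (Submodule.disjoint_def.mp hAB.disjoint) _ (A.sub_mem u.2 u'.2) hd1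
  have huu : u = u' := Subtype.ext (sub_eq_zero.mp hd2)
  have hww : w = w' := by
    apply Subtype.ext
    rw [hd2] at hd
    exact (sub_eq_zero.mp hd.symm).symm
  subst huu
  subst hww
  obtain ⟨s, rfl⟩ := hp u hu hu'
  obtain ⟨t, rfl⟩ := hq w hw hw'
  rw [map_smul, map_smul, smul_eq_mul, smul_eq_mul] at e1 e2
  have hs : s * (l1 p * (z * m2 q) - m1 q * l2 p) = 0 := by
    linear_combination (z * m2 q) * e1 - (m1 q) * e2
  have ht : t * (l1 p * (z * m2 q) - m1 q * l2 p) = 0 := by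
    linear_combination (l1 p) * e2 - (l2 p) * e1
  have hs0 : s = 0 := (mul_eq_zero.mp hs).resolve_right hD
  have ht0 : t = 0 := (mul_eq_zero.mp ht).resolve_right hD
  rw [hx1, hs0, ht0]
  simp

end Vale.Agent.P287.R2.H414
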